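import Vale.Agent.P105.Paths

open scoped ENNReal
open Real Finset

namespace Vale.Agent.P105

/-- telescoping bound for the tail of `∑ 1/(j+c)^2`. -/
lemma tail_sum {c : ℝ} {j0 : ℕ} (hc : 1 < (j0 : ℝ) + c) (n : ℕ) :
    ∑ j ∈ Finset.Ico j0 n, 1 / ((j : ℝ) + c) ^ 2 ≤ 1 / ((j0 : ℝ) + c - 1) := by
  rcases le_or_gt n j0 with h | h
  · rw [Finset.Ico_eq_empty (by omega)]
    simp only [Finset.sum_empty]
    apply div_nonneg zero_le_one; linarith
  · have key : ∀ k : ℕ, ∑ j ∈ Finset.Ico j0 (j0 + k), 1 / ((j : ℝ) + c) ^ 2 ≤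
        1 / ((j0 : ℝ) + c - 1) - 1 / ((j0 : ℝ) + k + c - 1) := by
      intro k
      induction k with
      | zero => simp
      | succ k ih =>
        rw [← add_assoc, Finset.sum_Ico_succ_top (by omega)]
        have hk : (0:ℝ) ≤ k := Nat.cast_nonneg k
        set X : ℝ := (j0 : ℝ) + k + c with hX
        have hX1 : 1 < X := by linarith
        have e1 : ((j0 + k : ℕ) : ℝ) + c = X := by push_cast; ring
        have e2 : (j0 : ℝ) + ((k + 1 : ℕ) : ℝ) + c - 1 = X := by push_cast; ring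
        rw [e1, e2]
        have h1 : 1 / X ^ 2 ≤ 1 / (X - 1) - 1 / X := by
          rw [div_sub_div _ _ (by linarith) (by linarith), div_le_div_iff₀ (by positivity) (by nlinarith)]
          nlinarith
        linarith
    obtain ⟨k, rfl⟩ : ∃ k, n = j0 + k := ⟨n - j0, by omega⟩
    refine (key k).trans ?_
    have hk : (0:ℝ) ≤ k := Nat.cast_nonneg k
    have : 0 ≤ 1 / ((j0 : ℝ) + k + c - 1) := by
      apply div_nonneg zero_le_one; linarith
    linarith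

lemma mul_le_ofReal {a b : ℝ≥0∞} {x y : ℝ} (ha : a ≤ ENNReal.ofReal x) (hb : b ≤ ENNReal.ofReal y)
    (hx : 0 ≤ x) : a * b ≤ ENNReal.ofReal (x * y) := by
  rw [ENNReal.ofReal_mul hx]; exact mul_le_mul' ha hb

lemma add_le_ofReal {a b : ℝ≥0∞} {x y : ℝ} (ha : a ≤ ENNReal.ofReal x) (hb : b ≤ ENNReal.ofReal y)
    (hx : 0 ≤ x) (hy : 0 ≤ y) : a + b ≤ ENNReal.ofReal (x + y) := by
  rw [ENNReal.ofReal_add hx hy]; exact add_le_add ha hb

section
variable {m : ℕ} {θ : ℝ}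

/-- once a path has left the piece of `0`, its weight is controlled by `U`. -/
lemma e0_le {j0 j : ℕ} (hθ : 1 < θ) (hj0 : 1 ≤ j0) (hj : j0 ≤ j) {B : ℝ}
    (hBj : θ ^ j0 / 2 + 1 / 2 + B ≤ θ ^ j0) {C : ℝ≥0∞}
    (hU : ∀ K : ℤ, K ≠ 0 → |(K : ℝ)| + B ≤ θ ^ j0 → T m θ (j - j0) K ≤ C) :
    e0 m θ j ≤ e0 m θ j0 * C := by
  unfold e0
  have : j = j0 + (j - j0) := by omega
  conv_lhs => rw [this]
  apply TA_comp_le
  intro x hx
  apply hU
  · have : θ ^ j0 * x = θ ^ (j0 - 1) * (θ * x) := by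
      have : θ ^ j0 = θ ^ (j0 - 1) * θ := by rw [← pow_succ]; congr 1; omega
      rw [this]; ring
    rw [this]
    exact round_mul_ne_zero hx.2 (one_le_pow₀ hθ.le)
  · have h1 := abs_round_le (x := θ ^ j0 * x)
    have h2 : |θ ^ j0 * x| ≤ θ ^ j0 / 2 := by
      have hx2 := abs_le_abs_round (x := x)
      rw [hx.1] at hx2
      simp only [Int.cast_zero, abs_zero, zero_add] at hx2
      rw [abs_mul, abs_of_pos (by positivity)]
      have : 0 < θ ^ j0 := by positivity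
      nlinarith
    linarith

lemma e1_le {j0 j : ℕ} (hθ : 1 < θ) (hj0 : 1 ≤ j0) (hj : j0 ≤ j) {B : ℝ}
    (hBj : θ ^ j0 / 2 + 1 / 2 + B ≤ θ ^ j0) {C : ℝ≥0∞}
    (hU : ∀ K : ℤ, K ≠ 0 → |(K : ℝ)| + B ≤ θ ^ j0 → T m θ (j - j0) K ≤ C) :
    e1 m θ j ≤ e1 m θ j0 * C := by
  unfold e1
  have : j + 1 = (j0 + 1) + (j - j0) := by omega
  conv_lhs => rw [this]
  apply TA_comp_le
  intro x hx
  apply hU
  · have : θ ^ (j0 + 1) * x = θ ^ (j0 - 1) * (θ * (θ * x)) := by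
      have : θ ^ (j0 + 1) = θ ^ (j0 - 1) * θ * θ := by
        rw [← pow_succ, ← pow_succ]; congr 1; omega
      rw [this]; ring
    rw [this]
    exact round_mul_ne_zero hx.2 (one_le_pow₀ hθ.le)
  · have h1 := abs_round_le (x := θ ^ (j0 + 1) * x)
    have h2 : |θ ^ (j0 + 1) * x| ≤ θ ^ j0 / 2 := by
      have hx2 := abs_le_abs_round (x := θ * x)
      rw [hx.1] at hx2
      simp only [Int.cast_zero, abs_zero, zero_add] at hx2
      have : θ ^ (j0 + 1) * x = θ ^ j0 * (θ * x) := by rw [pow_succ]; ring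
      rw [this, abs_mul, abs_of_pos (by positivity)]
      have : 0 < θ ^ j0 := by positivity
      nlinarith
    linarith

end

/-- All numerical hypotheses used in the bootstrap. -/
structure Cert (m p q h n0 j0 : ℕ) (θ ρ c B κh κs S Sb a0 a1 b0 b1 b2 d0 δ0 C1 : ℝ) (κ : ℕ → ℝ) :
    Prop where
  hp : 2 ≤ p
  hpq : p < q
  hcop : Nat.Coprime p q
  hθ : θ = (q : ℝ) / p
  hn0 : 1 ≤ n0
  hhj0 : h < j0
  hρ : 1 ≤ ρ
  hc0 : 1 ≤ c
  hη : ∀ v e : ℕ, (p : ℝ) ^ v ≤ θ ^ e → (v : ℝ) ≤ (ρ - 1) * e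
  hnc : (n0 : ℝ) ≤ (ρ - 1) * c
  hB : 0 ≤ B
  hBs : ∀ s : ℕ, n0 ≤ s → θ ^ s / 2 + 1 / 2 + B ≤ θ ^ s * B
  hBj : θ ^ j0 / 2 + 1 / 2 + B ≤ θ ^ j0
  hκ0 : ∀ v, 0 ≤ κ v
  hκh0 : 0 ≤ κh
  hS0 : 0 ≤ S
  hSb1 : 1 ≤ Sb
  ha10 : 0 ≤ a1
  hb00 : 0 ≤ b0
  hb10 : 0 ≤ b1
  hb20 : 0 ≤ b2
  hd00 : 0 ≤ d0
  hδ00 : 0 ≤ δ0
  hκ : ∀ v < h, ∀ K : ℤ, (p : ℤ) ^ v ∣ K → ¬ (p : ℤ) ^ (v + 1) ∣ K →
      T m θ (v + n0) K ≤ ENNReal.ofReal (κ v)
  hκh : ∀ K : ℤ, (p : ℤ) ^ h ∣ K → ¬ (p : ℤ) ^ (h + 1) ∣ K →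
      T m θ (h + n0) K ≤ ENNReal.ofReal κh
  hS : ∀ K, T m θ n0 K ≤ ENNReal.ofReal S
  hSb : ∀ n < n0, ∀ K, T m θ n K ≤ ENNReal.ofReal Sb
  he0 : ∀ j, 1 ≤ j → j < j0 → e0 m θ j ≤ ENNReal.ofReal a0
  he0h : ∀ j, h < j → j < j0 → e0 m θ j ≤ ENNReal.ofReal a1
  he0j : e0 m θ j0 ≤ ENNReal.ofReal d0
  hd0 : d0 * C1 ≤ a1
  ha : a1 ≤ a0
  he1 : ∑ j ∈ Finset.Ioo 0 j0, e1 m θ j ≤ ENNReal.ofReal b0
  he1h : ∑ j ∈ Finset.Ioo h j0, e1 m θ j ≤ ENNReal.ofReal b1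
  he1j : e1 m θ j0 ≤ ENNReal.ofReal b2
  hκs : κh + (a1 + (b1 + b2 * C1 * (j0 + c) ^ 2 / (j0 + c - 1))) * S ≤ κs
  hκsρ : κs * ρ ^ 2 ≤ 1
  hκv : ∀ v < h, κ v * (j0 + c + v + n0) ^ 2 ≤ (j0 + c) ^ 2
  hδ0 : a0 + (b0 + b2 * C1 * (j0 + c) ^ 2 / (j0 + c - 1)) ≤ δ0
  hC1 : (1 + δ0) * Sb * ρ ^ 2 ≤ C1

lemma scale_short {κv e j c s : ℝ} (hκ : 0 ≤ κv) (hj : 0 < j + c) (he : j ≤ e) (hs : 0 ≤ s)
    (h : κv * (j + c + s) ^ 2 ≤ (j + c) ^ 2) : κv * (e + c + s) ^ 2 ≤ (e + c) ^ 2 := by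
  have hA' : 0 < e + c := by linarith
  have h2 : (e + c + s) * (j + c) ≤ (j + c + s) * (e + c) := by nlinarith
  have h3 : ((e + c + s) * (j + c)) ^ 2 ≤ ((j + c + s) * (e + c)) ^ 2 :=
    pow_le_pow_left₀ (by positivity) h2 2
  have h5 : (0 : ℝ) < (j + c) ^ 2 := by positivity
  have h6 : (j + c) ^ 2 * (κv * (e + c + s) ^ 2) ≤ (j + c) ^ 2 * (e + c) ^ 2 := by
    calc (j + c) ^ 2 * (κv * (e + c + s) ^ 2) = κv * ((e + c + s) * (j + c)) ^ 2 := by ring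
      _ ≤ κv * ((j + c + s) * (e + c)) ^ 2 := mul_le_mul_of_nonneg_left h3 hκ
      _ = (κv * (j + c + s) ^ 2) * (e + c) ^ 2 := by ring
      _ ≤ _ := mul_le_mul_of_nonneg_right h (by positivity)
  exact le_of_mul_le_mul_left h6 h5

lemma scale_long {κ C e c s ρ : ℝ} (hκ : 0 ≤ κ) (hec : 0 ≤ e + c + s)
    (hs : e + c + s ≤ ρ * (e + c)) (h : κ * ρ ^ 2 ≤ C) :
    κ * (e + c + s) ^ 2 ≤ C * (e + c) ^ 2 := by
  have h2 : (e + c + s) ^ 2 ≤ (ρ * (e + c)) ^ 2 := pow_le_pow_left₀ hec hs 2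
  calc κ * (e + c + s) ^ 2 ≤ κ * (ρ * (e + c)) ^ 2 := mul_le_mul_of_nonneg_left h2 hκ
    _ = (κ * ρ ^ 2) * (e + c) ^ 2 := by ring
    _ ≤ C * (e + c) ^ 2 := mul_le_mul_of_nonneg_right h (by positivity)

section
variable {m p q h n0 j0 : ℕ} {θ ρ c B κh κs S Sb a0 a1 b0 b1 b2 d0 δ0 C1 : ℝ} {κ : ℕ → ℝ}

namespace Cert

variable (H : Cert m p q h n0 j0 θ ρ c B κh κs S Sb a0 a1 b0 b1 b2 d0 δ0 C1 κ)
include H

lemma p_pos : (0 : ℝ) < p := by
  have := H.hp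
  positivity

lemma θ1 : 1 < θ := by
  rw [H.hθ, one_lt_div H.p_pos]; exact_mod_cast H.hpq

lemma j01 : (1 : ℝ) ≤ j0 := by
  have := H.hhj0
  have : 1 ≤ j0 := by omega
  exact_mod_cast this

lemma jc : 1 < (j0 : ℝ) + c := by
  have := H.j01
  have := H.hc0
  linarith

lemma C10 : 0 ≤ C1 := by
  have h1 := H.hSb1
  have h2 := H.hδ00
  exact le_trans (by positivity) H.hC1

lemma τ0 : 0 ≤ b2 * C1 * (j0 + c) ^ 2 / (j0 + c - 1) := by
  have h1 := H.C10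
  have h2 := H.hb20
  have h3 := H.jc
  apply div_nonneg (by positivity); linarith

lemma κs0 : 0 ≤ κs := by
  refine le_trans ?_ H.hκs
  have h1 := H.τ0
  have h2 := H.hκh0
  have h3 := H.ha10
  have h4 := H.hb10
  have h5 := H.hS0
  positivity

/-- integrality of the centres -/
lemma hint (v : ℕ) (K : ℤ) (hK : (p : ℤ) ^ v ∣ K) (i : ℕ) (hi : i ≤ v) :
    ∃ a : ℤ, θ ^ i * (K : ℝ) = a := by
  obtain ⟨d, hd⟩ := (pow_dvd_pow (p : ℤ) hi).trans hK
  refine ⟨(q : ℤ) ^ i * d, ?_⟩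
  have hp0 := H.p_pos
  rw [hd, H.hθ]
  push_cast
  rw [div_pow]
  field_simp

lemma center {v : ℕ} (hvh : h ≤ v) {K : ℤ} (hv1 : (p : ℤ) ^ v ∣ K) (hv2 : ¬ (p : ℤ) ^ (v + 1) ∣ K) :
    ∃ R : ℤ, θ ^ (v - h) * (K : ℝ) = R ∧ (p : ℤ) ^ h ∣ R ∧ ¬ (p : ℤ) ^ (h + 1) ∣ R := by
  obtain ⟨d, hd⟩ := hv1
  have hp0 := H.p_pos
  have hpow : (p : ℤ) ^ v = (p : ℤ) ^ (v - h) * (p : ℤ) ^ h := by
    rw [← pow_add]; congr 1; omega
  refine ⟨(p : ℤ) ^ h * ((q : ℤ) ^ (v - h) * d), ?_, Dvd.intro _ rfl, ?_⟩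
  · rw [hd, H.hθ, hpow]
    push_cast
    rw [div_pow]
    field_simp
  · intro hdiv
    apply hv2
    rw [pow_succ, mul_dvd_mul_iff_left (by have := H.hp; positivity)] at hdiv
    have hcop : IsCoprime (p : ℤ) ((q : ℤ) ^ (v - h)) := by
      apply IsCoprime.pow_right
      exact Nat.isCoprime_iff_coprime.mpr H.hcop
    have hd' : (p : ℤ) ∣ d := hcop.dvd_of_dvd_mul_left hdiv
    rw [hd, pow_succ]
    exact mul_dvd_mul_left _ hd'

/-- the U statement at level `n` -/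
def Ust (C1 c B θ : ℝ) (m j0 n : ℕ) : Prop := ∀ e : ℕ, j0 ≤ e → ∀ K : ℤ, K ≠ 0 →
  |(K : ℝ)| + B ≤ θ ^ e → T m θ n K ≤ ENNReal.ofReal (C1 * ((e + c) ^ 2 / (e + n + c) ^ 2))

lemma E0 {j : ℕ} (hj : j0 ≤ j) (IH : Ust C1 c B θ m j0 (j - j0)) :
    e0 m θ j ≤ ENNReal.ofReal a1 := by
  have hjc := H.jc
  have hj0 : 1 ≤ j0 := by have := H.hhj0; omega
  have hC1 := H.C10
  have h1 := e0_le (m := m) H.θ1 hj0 hj H.hBj
    (C := ENNReal.ofReal C1) (fun K hK0 hK => by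
      refine (IH j0 le_rfl K hK0 hK).trans (ENNReal.ofReal_le_ofReal ?_)
      have hx : (0 : ℝ) ≤ ((j - j0 : ℕ) : ℝ) := Nat.cast_nonneg _
      have : ((j0 : ℝ) + c) ^ 2 / (j0 + ((j - j0 : ℕ) : ℝ) + c) ^ 2 ≤ 1 := by
        rw [div_le_one (pow_pos (by linarith) 2)]
        apply pow_le_pow_left₀ (by linarith); linarith
      nlinarith)
  exact h1.trans ((mul_le_ofReal H.he0j le_rfl H.hd00).trans (ENNReal.ofReal_le_ofReal H.hd0))

lemma E1 {j : ℕ} (hj : j0 ≤ j) (IH : Ust C1 c B θ m j0 (j - j0)) :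
    e1 m θ j ≤ ENNReal.ofReal (b2 * C1 * (j0 + c) ^ 2 * (1 / ((j : ℝ) + c) ^ 2)) := by
  have hj0 : 1 ≤ j0 := by have := H.hhj0; omega
  have h1 := e1_le (m := m) H.θ1 hj0 hj H.hBj
    (C := ENNReal.ofReal (C1 * ((j0 + c) ^ 2 / ((j : ℝ) + c) ^ 2))) (fun K hK0 hK => by
      refine (IH j0 le_rfl K hK0 hK).trans (ENNReal.ofReal_le_ofReal ?_)
      have : (j0 : ℝ) + ((j - j0 : ℕ) : ℝ) = j := by
        rw [Nat.cast_sub hj]; ring
      rw [this])
  refine h1.trans ((mul_le_ofReal H.he1j le_rfl H.hb20).trans (ENNReal.ofReal_le_ofReal ?_))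
  apply le_of_eq; ring

lemma sumE1 {n : ℕ} (IH : ∀ k < n, Ust C1 c B θ m j0 k) (g : ℕ) (v : ℕ) (b : ℝ) (hb : 0 ≤ b)
    (hg : g < j0) (hgb : ∑ j ∈ Finset.Ioo g j0, e1 m θ j ≤ ENNReal.ofReal b) (hv : v ≤ n) :
    ∑ j ∈ Finset.Ioo g v, e1 m θ j ≤
      ENNReal.ofReal (b + b2 * C1 * (j0 + c) ^ 2 / (j0 + c - 1)) := by
  have hjc := H.jc
  have hC1 := H.C10
  have hb2 := H.hb20
  have htail : ∑ j ∈ Finset.Ico j0 v, e1 m θ j ≤
      ENNReal.ofReal (b2 * C1 * (j0 + c) ^ 2 / (j0 + c - 1)) := by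
    calc ∑ j ∈ Finset.Ico j0 v, e1 m θ j
        ≤ ∑ j ∈ Finset.Ico j0 v,
          ENNReal.ofReal (b2 * C1 * (j0 + c) ^ 2 * (1 / ((j : ℝ) + c) ^ 2)) := by
          apply Finset.sum_le_sum
          intro j hj
          rw [Finset.mem_Ico] at hj
          refine H.E1 hj.1 (IH _ ?_)
          have := H.hhj0
          omega
      _ = ENNReal.ofReal (∑ j ∈ Finset.Ico j0 v,
          (b2 * C1 * (j0 + c) ^ 2 * (1 / ((j : ℝ) + c) ^ 2))) := by
          rw [ENNReal.ofReal_sum_of_nonneg]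
          intro j _; positivity
      _ ≤ _ := by
          apply ENNReal.ofReal_le_ofReal
          rw [← Finset.mul_sum]
          calc b2 * C1 * (j0 + c) ^ 2 * ∑ j ∈ Finset.Ico j0 v, (1 / ((j : ℝ) + c) ^ 2)
              ≤ b2 * C1 * (j0 + c) ^ 2 * (1 / ((j0 : ℝ) + c - 1)) :=
                mul_le_mul_of_nonneg_left (tail_sum hjc v) (by positivity)
            _ = _ := by ring
  calc ∑ j ∈ Finset.Ioo g v, e1 m θ j
      ≤ ∑ j ∈ Finset.Ioo g j0 ∪ Finset.Ico j0 v, e1 m θ j := by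
        apply Finset.sum_le_sum_of_subset
        intro j hj
        rw [Finset.mem_Ioo] at hj
        rw [Finset.mem_union, Finset.mem_Ioo, Finset.mem_Ico]
        omega
    _ ≤ ∑ j ∈ Finset.Ioo g j0, e1 m θ j + ∑ j ∈ Finset.Ico j0 v, e1 m θ j := by
        rw [Finset.sum_union]
        rw [Finset.disjoint_left]
        intro a ha ha'
        rw [Finset.mem_Ioo] at ha
        rw [Finset.mem_Ico] at ha'
        omega
    _ ≤ _ := add_le_ofReal hgb htail hb H.τ0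

lemma T0 {n : ℕ} (IH : ∀ k < n, Ust C1 c B θ m j0 k) : T m θ n 0 ≤ ENNReal.ofReal (1 + δ0) := by
  have hδ := H.hδ00
  have ha := H.ha
  have ha1 := H.ha10
  have hb0 := H.hb00
  have hτ := H.τ0
  have hδ0 := H.hδ0
  have hj := H.hhj0
  rcases Nat.eq_zero_or_pos n with hk0 | hk0
  · rw [hk0]
    refine (T_zero 0).trans ?_
    rw [← ENNReal.ofReal_one]
    apply ENNReal.ofReal_le_ofReal; linarith
  · refine (T_zero_le n).trans ?_
    have h0 : e0 m θ n ≤ ENNReal.ofReal a0 := by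
      rcases lt_or_ge n j0 with h' | h'
      · exact H.he0 n hk0 h'
      · exact (H.E0 h' (IH _ (by omega))).trans (ENNReal.ofReal_le_ofReal H.ha)
    have h1 := H.sumE1 IH 0 n b0 H.hb00 (by omega) H.he1 le_rfl
    have h2 := add_le_ofReal h0 h1 (by linarith) (by linarith)
    have h3 : (1 : ℝ≥0∞) ≤ ENNReal.ofReal 1 := by simp
    refine (add_le_ofReal h3 h2 zero_le_one (by linarith)).trans
      (ENNReal.ofReal_le_ofReal ?_)
    linarith

lemma contr {n : ℕ} (IH : ∀ k < n, Ust C1 c B θ m j0 k) {v e : ℕ} (hvn : v + n0 ≤ n)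
    (he : j0 ≤ e) (hvb : (v : ℝ) ≤ (ρ - 1) * e)
    {K : ℤ} (hv1 : (p : ℤ) ^ v ∣ K) (hv2 : ¬ (p : ℤ) ^ (v + 1) ∣ K) :
    ∃ k : ℝ, 0 ≤ k ∧ T m θ (v + n0) K ≤ ENNReal.ofReal k ∧
      k * ((e : ℝ) + c + (v + n0)) ^ 2 ≤ (e + c) ^ 2 := by
  have hjc := H.jc
  have hee : (j0 : ℝ) ≤ e := by exact_mod_cast he
  rcases lt_or_ge v h with hvh | hvh
  · refine ⟨κ v, H.hκ0 v, H.hκ v hvh K hv1 hv2, ?_⟩
    have h1 := H.hκv v hvh
    refine scale_short (H.hκ0 v) (by linarith) hee (by positivity) ?_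
    rwa [← add_assoc]
  · refine ⟨κs, H.κs0, ?_, ?_⟩
    · have h5 := H.τ0
      have h6 := H.ha10
      have h7 := H.hb10
      have h8 := H.hS0
      rcases eq_or_lt_of_le hvh with hveq | hvlt
      · rw [← hveq]
        refine (H.hκh K (hveq ▸ hv1) (hveq ▸ hv2)).trans (ENNReal.ofReal_le_ofReal ?_)
        refine le_trans ?_ H.hκs
        have : 0 ≤ (a1 + (b1 + b2 * C1 * (j0 + c) ^ 2 / (j0 + c - 1))) * S := by positivity
        linarith
      · obtain ⟨R, hR, hR1, hR2⟩ := H.center hvh hv1 hv2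
        have hoff := off_lemma (m := m) (v := v) (h := h) (n0 := n0) (r := K) hvh
          (H.hint v K hv1) H.hS hR
        refine hoff.trans ?_
        have h0 : e0 m θ v ≤ ENNReal.ofReal a1 := by
          rcases lt_or_ge v j0 with h' | h'
          · exact H.he0h v hvlt h'
          · refine H.E0 h' (IH _ ?_)
            have := H.hhj0
            omega
        have h1 := H.sumE1 IH h v b1 H.hb10 H.hhj0 H.he1h (by omega)
        have h2 := mul_le_ofReal (add_le_ofReal h0 h1 H.ha10 (by positivity)) le_rfl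
          (by positivity) (b := ENNReal.ofReal S) (y := S)
        exact (add_le_ofReal (H.hκh R hR1 hR2) h2 H.hκh0 (by positivity)).trans
          (ENNReal.ofReal_le_ofReal H.hκs)
    · have hnc := H.hnc
      have := scale_long (C := 1) (s := (v : ℝ) + n0) (c := c) (e := e) H.κs0
        (by have := H.hc0; positivity) (by linarith) H.hκsρ
      rwa [one_mul] at this

lemma U (n : ℕ) : Ust C1 c B θ m j0 n := by
  induction n using Nat.strong_induction_on with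
  | _ n IH =>
  have hθ1 := H.θ1
  have hC1n := H.C10
  have hc0 := H.hc0
  intro e he K hK0 hK
  have hKpos : (1 : ℝ) ≤ |(K : ℝ)| := by
    have : (1 : ℤ) ≤ |K| := Int.one_le_abs hK0
    exact_mod_cast this
  -- valuation
  obtain ⟨v, hv1, hv2⟩ : ∃ v, (p : ℤ) ^ v ∣ K ∧ ¬ (p : ℤ) ^ (v + 1) ∣ K := by
    have hfin : FiniteMultiplicity (p : ℤ) K := by
      rw [Int.finiteMultiplicity_iff]
      refine ⟨?_, hK0⟩
      have := H.hp
      simp; omega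
    exact ⟨multiplicity (p : ℤ) K, pow_multiplicity_dvd _ _,
      hfin.not_pow_dvd_of_multiplicity_lt (Nat.lt_succ_self _)⟩
  have hvb : (v : ℝ) ≤ (ρ - 1) * e := by
    apply H.hη
    have h1 : (p : ℤ) ^ v ≤ |K| := Int.le_of_dvd (abs_pos.mpr hK0) ((dvd_abs _ _).mpr hv1)
    have h2 : (p : ℝ) ^ v ≤ |(K : ℝ)| := by exact_mod_cast h1
    have := H.hB
    linarith
  rcases le_or_gt (v + n0) n with hcase | hcase
  · -- complete block
    obtain ⟨k, hk0, hkT, hkφ⟩ := H.contr IH hcase he hvb hv1 hv2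
    obtain ⟨n', rfl⟩ : ∃ n', n = (v + n0) + n' := ⟨n - (v + n0), by omega⟩
    have hn0 := H.hn0
    have hstep : T m θ (v + n0 + n') K ≤ T m θ (v + n0) K *
        ENNReal.ofReal (C1 * (((e + (v + n0) : ℕ) + c) ^ 2 / ((e + (v + n0) : ℕ) + n' + c) ^ 2)) := by
      apply TA_comp_le
      intro x hx
      have hx' : round x = K := hx
      apply IH n' (by omega) (e + (v + n0)) (by omega)
      · apply round_mul_ne_zero
        · rw [hx']; exact hK0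
        · exact one_le_pow₀ hθ1.le
      · have h1 := abs_round_le (x := θ ^ (v + n0) * x)
        have h2 := abs_le_abs_round (x := x)
        rw [hx'] at h2
        have h4 : 0 < θ ^ (v + n0) := by positivity
        rw [abs_mul, abs_of_pos h4] at h1
        have h3 := H.hBs (v + n0) (by omega)
        rw [pow_add θ e (v + n0)]
        have h5 : θ ^ (v + n0) * |x| ≤ θ ^ (v + n0) * (|(K : ℝ)| + 1 / 2) :=
          mul_le_mul_of_nonneg_left h2 h4.le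
        have h6 : θ ^ (v + n0) * (|(K : ℝ)| + B) ≤ θ ^ (v + n0) * θ ^ e :=
          mul_le_mul_of_nonneg_left hK h4.le
        linarith
    refine hstep.trans ((mul_le_ofReal hkT le_rfl hk0).trans (ENNReal.ofReal_le_ofReal ?_))
    push_cast
    have hD : 0 < ((e : ℝ) + (v + n0) + n' + c) ^ 2 := by positivity
    have hD' : ((e : ℝ) + (v + n0 + n') + c) ^ 2 = ((e : ℝ) + (v + n0) + n' + c) ^ 2 := by ring
    rw [hD', mul_div_assoc', mul_div_assoc', mul_div_assoc', div_le_div_iff_of_pos_right hD]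
    have : k * (C1 * ((e : ℝ) + (v + n0) + c) ^ 2) = C1 * (k * ((e : ℝ) + c + (v + n0)) ^ 2) := by
      ring
    rw [this]
    exact mul_le_mul_of_nonneg_left hkφ hC1n
  · -- incomplete block
    have hδ := H.hδ00
    have hSb := H.hSb1
    have hTb : T m θ n K ≤ ENNReal.ofReal ((1 + δ0) * Sb) := by
      rcases le_or_gt n v with hnv | hnv
      · have h1 := T_translate (m := m) (θ := θ) (n := n) (r := K)
          (fun i hi => H.hint v K hv1 i (by omega))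
        refine h1.trans ((H.T0 IH).trans (ENNReal.ofReal_le_ofReal ?_))
        nlinarith
      · obtain ⟨n', rfl⟩ : ∃ n', n = v + n' := ⟨n - v, by omega⟩
        have h1 : T m θ (v + n') K ≤ T m θ v K * ENNReal.ofReal Sb := by
          apply TA_comp_le
          intro x _
          exact H.hSb n' (by omega) _
        have h2 := T_translate (m := m) (θ := θ) (n := v) (r := K)
          (fun i hi => H.hint v K hv1 i hi)
        refine h1.trans (mul_le_ofReal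
          (h2.trans (H.T0 (fun k hk => IH k (by omega)))) le_rfl (by linarith))
    refine hTb.trans (ENNReal.ofReal_le_ofReal ?_)
    have hnr : (n : ℝ) ≤ v + n0 := by exact_mod_cast hcase.le
    have hnc := H.hnc
    have hD : 0 < ((e : ℝ) + n + c) ^ 2 := by positivity
    rw [mul_div_assoc', le_div_iff₀ hD]
    have := scale_long (κ := (1 + δ0) * Sb) (C := C1) (s := (n : ℝ)) (c := c) (e := e)
      (by positivity) (by positivity) (by linarith) H.hC1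
    have h9 : (e : ℝ) + n + c = e + c + n := by ring
    rw [h9]
    exact this

/-- The bootstrap: uniform bound for the total weight out of the piece of `0`. -/
theorem bounded (n : ℕ) : T m θ n 0 ≤ ENNReal.ofReal (1 + δ0) :=
  H.T0 (fun k _ => H.U k)

end Cert

end

end Vale.Agent.P105
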