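import Vale.Agent.P105.Check3

open scoped ENNReal
open Real Finset

namespace Vale.Agent.P105

namespace Chk

variable {m : ℕ} {θ : ℝ}

lemma le_ofReal_div {x : ℝ≥0∞} {a b : ℕ} (h : x ≤ ENNReal.ofReal ((a : ℝ) / 1099511627776))
    (hab : a ≤ b) : x ≤ ENNReal.ofReal ((b : ℝ) / 1099511627776) := by
  refine h.trans (ENNReal.ofReal_le_ofReal ?_)
  apply div_le_div_of_nonneg_right _ (by norm_num)
  exact_mod_cast hab

/-- Assemble a certificate from kernel computations. -/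
theorem mkCert {p q a b m h n0 j0 D' DE' : ℕ} {κn Sn e0n e1n : ℕ → ℕ}
    {Sbn a0n a1n b0n b1n : ℕ} {c B κs C1 δ0 : ℝ}
    (hp : 2 ≤ p) (hpq : p < q) (hcop : Nat.Coprime p q) (hm : 1 ≤ m) (hn0 : 1 ≤ n0)
    (hhj0 : h < j0) (ha0 : 0 < a) (hab : q ^ a ≤ p ^ (a + b)) (hD : 0 < D') (hDE : 0 < DE')
    (hc : 1 ≤ c) (hnc : (n0 : ℝ) ≤ (b : ℝ) / a * c) (hB : 1 ≤ B)
    (hBs : ((q : ℝ) / p) ^ n0 / 2 + 1 / 2 + B ≤ ((q : ℝ) / p) ^ n0 * B)
    (hBj : ((q : ℝ) / p) ^ j0 / 2 + 1 / 2 + B ≤ ((q : ℝ) / p) ^ j0)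
    (hk : ∀ v, v ≤ h → ∀ i, i < p ^ n0 → okS p q (2 * D') m (v + n0) (p ^ v) (κn v) i = true)
    (hS : ∀ n, 1 ≤ n → n ≤ n0 → ∀ i, i < p ^ n → okA p q (2 * D') m n (Sn n) i = true)
    (hSb : ∀ n, n < n0 → Sn n ≤ Sbn) (hSb1 : 1099511627776 ≤ Sbn)
    (he0 : ∀ j, 1 ≤ j → j ≤ j0 → E0 p q (2 * DE') m j ≤ e0n j)
    (he1 : ∀ j, 1 ≤ j → j ≤ j0 → E1 p q (2 * DE') m j ≤ e1n j)
    (ha0n : ∀ j, 1 ≤ j → j < j0 → e0n j ≤ a0n)
    (ha1n : ∀ j, h < j → j < j0 → e0n j ≤ a1n) (ha10 : a1n ≤ a0n)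
    (hb0n : ∑ j ∈ Finset.Ioo 0 j0, e1n j ≤ b0n)
    (hb1n : ∑ j ∈ Finset.Ioo h j0, e1n j ≤ b1n)
    (hd0 : (e0n j0 : ℝ) * C1 ≤ a1n)
    (hδ00 : 0 ≤ δ0)
    (hκs : (κn h : ℝ) / 1099511627776 + ((a1n : ℝ) / 1099511627776 + ((b1n : ℝ) / 1099511627776 +
      (e1n j0 : ℝ) / 1099511627776 * C1 * (j0 + c) ^ 2 / (j0 + c - 1))) *
        ((Sn n0 : ℝ) / 1099511627776) ≤ κs)
    (hκsρ : κs * (1 + (b : ℝ) / a) ^ 2 ≤ 1)
    (hκv : ∀ v, v < h → (κn v : ℝ) / 1099511627776 * (j0 + c + v + n0) ^ 2 ≤ (j0 + c) ^ 2)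
    (hδ0 : (a0n : ℝ) / 1099511627776 + ((b0n : ℝ) / 1099511627776 +
      (e1n j0 : ℝ) / 1099511627776 * C1 * (j0 + c) ^ 2 / (j0 + c - 1)) ≤ δ0)
    (hC1 : (1 + δ0) * ((Sbn : ℝ) / 1099511627776) * (1 + (b : ℝ) / a) ^ 2 ≤ C1) :
    ∃ ρ κh S Sb a0 a1 b0 b1 b2 d0 : ℝ, ∃ κ : ℕ → ℝ,
    Cert m p q h n0 j0 ((q : ℝ) / p) ρ c B κh κs S Sb a0 a1 b0 b1 b2 d0 δ0 C1 κ := by
  have hp0 : 0 < p := by omega
  have hq0 : 0 < q := by omega
  have hpR : (0 : ℝ) < p := by exact_mod_cast hp0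
  have hqR : (0 : ℝ) < q := by exact_mod_cast hq0
  have haR : (0 : ℝ) < a := by exact_mod_cast ha0
  have hθ1 : 1 < (q : ℝ) / p := by rw [one_lt_div hpR]; exact_mod_cast hpq
  refine ⟨1 + (b : ℝ) / a, (κn h : ℝ) / 1099511627776, (Sn n0 : ℝ) / 1099511627776,
    (Sbn : ℝ) / 1099511627776, (a0n : ℝ) / 1099511627776, (a1n : ℝ) / 1099511627776,
    (b0n : ℝ) / 1099511627776, (b1n : ℝ) / 1099511627776, (e1n j0 : ℝ) / 1099511627776,
    (e0n j0 : ℝ) / 1099511627776, fun v => (κn v : ℝ) / 1099511627776, ?_⟩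
  have hcheck1 : ∀ g, (g < j0) → ∑ j ∈ Finset.Ioo g j0, e1 m ((q : ℝ) / p) j ≤
      ENNReal.ofReal (((∑ j ∈ Finset.Ioo g j0, e1n j : ℕ) : ℝ) / 1099511627776) := by
    intro g hg
    push_cast
    rw [Finset.sum_div, ENNReal.ofReal_sum_of_nonneg (fun i _ => by positivity)]
    apply Finset.sum_le_sum
    intro j hj
    rw [Finset.mem_Ioo] at hj
    exact le_ofReal_div (E1_sound hm hp0 hpq hDE rfl) (he1 j (by omega) (by omega))
  have hcheck0 : ∀ j, 1 ≤ j → j ≤ j0 → e0 m ((q : ℝ) / p) j ≤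
      ENNReal.ofReal ((e0n j : ℝ) / 1099511627776) := fun j h1 h2 =>
    le_ofReal_div (E0_sound hm hp0 hpq hDE h1 rfl) (he0 j h1 h2)
  constructor
  case hp => exact hp
  case hpq => exact hpq
  case hcop => exact hcop
  case hθ => rfl
  case hn0 => exact hn0
  case hhj0 => exact hhj0
  case hρ =>
    have : 0 ≤ (b : ℝ) / a := by positivity
    linarith
  case hc0 => exact hc
  case hη =>
    intro v e hve
    have h1 : ((q : ℝ) / p) ^ a ≤ (p : ℝ) ^ b := by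
      rw [div_pow, div_le_iff₀ (by positivity), ← pow_add, add_comm b a]
      exact_mod_cast hab
    have h2 : (p : ℝ) ^ (v * a) ≤ (p : ℝ) ^ (b * e) := by
      calc (p : ℝ) ^ (v * a) = ((p : ℝ) ^ v) ^ a := by rw [pow_mul]
        _ ≤ (((q : ℝ) / p) ^ e) ^ a := pow_le_pow_left₀ (by positivity) hve a
        _ = (((q : ℝ) / p) ^ a) ^ e := by rw [← pow_mul, ← pow_mul, mul_comm]
        _ ≤ ((p : ℝ) ^ b) ^ e := pow_le_pow_left₀ (by positivity) h1 e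
        _ = _ := by rw [← pow_mul]
    have h3 : v * a ≤ b * e := by
      rw [pow_le_pow_iff_right₀ (by exact_mod_cast (show 1 < p by omega))] at h2
      exact h2
    have h4 : (v : ℝ) * a ≤ b * e := by exact_mod_cast h3
    have h5 : (1 + (b : ℝ) / a - 1) * e = (b * e) / a := by ring
    rw [h5, le_div_iff₀ haR]
    exact h4
  case hnc =>
    have h5 : (1 + (b : ℝ) / a - 1) * c = (b : ℝ) / a * c := by ring
    rw [h5]; exact hnc
  case hB => linarith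
  case hBs =>
    intro s hs
    have h1 : ((q : ℝ) / p) ^ n0 ≤ ((q : ℝ) / p) ^ s := pow_le_pow_right₀ hθ1.le hs
    nlinarith
  case hBj => exact hBj
  case hκ0 => intro v; positivity
  case hκh0 => positivity
  case hS0 => positivity
  case hSb1 =>
    rw [one_le_div (by norm_num)]
    exact_mod_cast hSb1
  case ha10 => positivity
  case hb00 => positivity
  case hb10 => positivity
  case hb20 => positivity
  case hd00 => positivity
  case hδ00 => exact hδ00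
  case hκ =>
    intro v hv K h1 h2
    exact classS hm hp0 hq0 hD hn0 rfl rfl (hk v hv.le) K h1 h2
  case hκh =>
    intro K h1 h2
    exact classS hm hp0 hq0 hD hn0 rfl rfl (hk h le_rfl) K h1 h2
  case hS => exact classA hm hp0 hq0 hD hn0 rfl (hS n0 hn0 le_rfl)
  case hSb =>
    intro n hn K
    rcases Nat.eq_zero_or_pos n with hn' | hn'
    · rw [hn']
      refine (T_zero K).trans ?_
      rw [← ENNReal.ofReal_one]
      apply ENNReal.ofReal_le_ofReal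
      rw [one_le_div (by norm_num)]
      exact_mod_cast hSb1
    · exact le_ofReal_div (classA hm hp0 hq0 hD hn' rfl (hS n hn' hn.le) K) (hSb n hn)
  case he0 => exact fun j h1 h2 => le_ofReal_div (hcheck0 j h1 h2.le) (ha0n j h1 h2) |>.trans le_rfl
  case he0h => exact fun j h1 h2 => le_ofReal_div (hcheck0 j (by omega) h2.le) (ha1n j h1 h2)
  case he0j => exact hcheck0 j0 (by omega) le_rfl
  case hd0 =>
    rw [div_mul_eq_mul_div]
    exact div_le_div_of_nonneg_right hd0 (by norm_num)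
  case ha =>
    apply div_le_div_of_nonneg_right _ (by norm_num)
    exact_mod_cast ha10
  case he1 => exact le_ofReal_div (hcheck1 0 (by omega)) hb0n
  case he1h => exact le_ofReal_div (hcheck1 h hhj0) hb1n
  case he1j => exact le_ofReal_div (E1_sound hm hp0 hpq hDE rfl) (he1 j0 (by omega) le_rfl)
  case hκs => exact hκs
  case hκsρ => exact hκsρ
  case hκv => exact hκv
  case hδ0 => exact hδ0
  case hC1 => exact hC1

end Chk

end Vale.Agent.P105
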