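import Vale.Agent.P105.Defs

open MeasureTheory ProbabilityTheory Filter
open scoped ENNReal Topology

namespace Vale.Agent.P105

instance : IsProbabilityMeasure fairSign := by
  constructor
  simp only [fairSign, Measure.coe_add, Measure.coe_smul, Pi.add_apply, Pi.smul_apply,
    measure_univ, smul_eq_mul, mul_one]
  exact ENNReal.add_halves 1

lemma ae_fairSign : ∀ᵐ x ∂fairSign, |x| = 1 := by
  rw [fairSign, ae_add_measure_iff]
  refine ⟨?_, ?_⟩
  · apply Measure.ae_smul_measure
    rw [ae_dirac_iff]
    · simp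
    · exact measurableSet_eq_fun (by fun_prop) (by fun_prop)
  · apply Measure.ae_smul_measure
    rw [ae_dirac_iff]
    · simp
    · exact measurableSet_eq_fun (by fun_prop) (by fun_prop)

lemma charFun_fairSign (t : ℝ) : charFun fairSign t = Real.cos t := by
  rw [charFun_apply_real, fairSign]
  rw [integral_add_measure]
  · rw [integral_smul_measure, integral_smul_measure, integral_dirac, integral_dirac]
    simp only [ENNReal.toReal_div, ENNReal.toReal_one, ENNReal.toReal_ofNat]
    rw [Complex.ofReal_cos, Complex.cos]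
    simp only [Complex.ofReal_one, mul_one, Complex.ofReal_neg, mul_neg, neg_mul,
      Complex.real_smul, Complex.ofReal_div, Complex.ofReal_ofNat]
    ring
  · exact (integrable_dirac (by simp)).smul_measure (by simp)
  · exact (integrable_dirac (by simp)).smul_measure (by simp)

/-- the sign space -/
noncomputable abbrev PP : Measure (ℕ → ℝ) := Measure.infinitePi (fun _ : ℕ => fairSign)

lemma ae_signs : ∀ᵐ ε ∂PP, ∀ n, |ε n| = 1 := by
  rw [ae_all_iff]
  intro n
  have h := measurePreserving_eval_infinitePi (fun _ : ℕ => fairSign) n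
  exact h.quasiMeasurePreserving.ae ae_fairSign

lemma tendsto_partial {lam : ℝ} (h0 : 0 < lam) (h1 : lam < 1) : ∀ᵐ ε ∂PP,
    Tendsto (fun N => ∑ n ∈ Finset.range N, ε n * lam ^ n) atTop (𝓝 (∑' n, ε n * lam ^ n)) := by
  filter_upwards [ae_signs] with ε hε
  have hs : Summable (fun n => ε n * lam ^ n) := by
    apply Summable.of_norm
    have : (fun n => ‖ε n * lam ^ n‖) = fun n => lam ^ n := by
      ext n
      rw [norm_mul, Real.norm_eq_abs, hε n, one_mul, Real.norm_eq_abs, abs_of_pos (by positivity)]
    rw [this]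
    exact summable_geometric_of_lt_one h0.le h1
  exact hs.hasSum.tendsto_sum_nat

lemma measurable_partial (lam : ℝ) (N : ℕ) :
    Measurable (fun ε : ℕ → ℝ => ∑ n ∈ Finset.range N, ε n * lam ^ n) := by
  fun_prop

lemma aemeasurable_series {lam : ℝ} (h0 : 0 < lam) (h1 : lam < 1) :
    AEMeasurable (fun ε : ℕ → ℝ => ∑' n, ε n * lam ^ n) PP :=
  aemeasurable_of_tendsto_metrizable_ae atTop
    (fun N => (measurable_partial lam N).aemeasurable) (tendsto_partial h0 h1)

theorem isProb_bernoulliConv {lam : ℝ} (h0 : 0 < lam) (h1 : lam < 1) :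
    IsProbabilityMeasure (bernoulliConv lam) :=
  Measure.isProbabilityMeasure_map (aemeasurable_series h0 h1)

lemma charFun_partial (lam : ℝ) (N : ℕ) (t : ℝ) :
    charFun (PP.map (fun ε => ∑ n ∈ Finset.range N, ε n * lam ^ n)) t =
      ∏ n ∈ Finset.range N, (Real.cos (t * lam ^ n) : ℂ) := by
  have hind : iIndepFun (fun (n : ℕ) (ε : ℕ → ℝ) => ε n * lam ^ n) PP := by
    have := iIndepFun_infinitePi (P := fun _ : ℕ => fairSign)
      (X := fun (n : ℕ) (x : ℝ) => x * lam ^ n) (fun n => by fun_prop)
    exact this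
  have h := iIndepFun.charFun_map_fun_finsetSum_eq_prod (P := PP) (s := Finset.range N)
    (X := fun (n : ℕ) (ε : ℕ → ℝ) => ε n * lam ^ n)
    (fun i _ => ((measurable_pi_apply i).mul_const _).aemeasurable) (hind.restrict _)
  rw [h, Finset.prod_apply]
  apply Finset.prod_congr rfl
  intro n _
  have h2 : PP.map (fun ε : ℕ → ℝ => ε n * lam ^ n) = fairSign.map (fun x => lam ^ n * x) := by
    rw [← (measurePreserving_eval_infinitePi (fun _ : ℕ => fairSign) n).map_eq,
      Measure.map_map (by fun_prop) (by fun_prop)]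
    congr 1
    ext ε
    simp [mul_comm]
  rw [h2, charFun_map_mul, charFun_fairSign, mul_comm]

theorem tendsto_charFun {lam : ℝ} (h0 : 0 < lam) (h1 : lam < 1) (t : ℝ) :
    Tendsto (fun N => ∏ n ∈ Finset.range N, (Real.cos (t * lam ^ n) : ℂ)) atTop
      (𝓝 (charFun (bernoulliConv lam) t)) := by
  have h2 : ∀ N, ∏ n ∈ Finset.range N, (Real.cos (t * lam ^ n) : ℂ) =
      ∫ ε, Complex.exp (t * ((∑ n ∈ Finset.range N, ε n * lam ^ n : ℝ) : ℂ) * Complex.I) ∂PP := by
    intro N
    rw [← charFun_partial, charFun_apply_real, integral_map (measurable_partial lam N).aemeasurable]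
    fun_prop
  have h3 : charFun (bernoulliConv lam) t =
      ∫ ε, Complex.exp (t * ((∑' n, ε n * lam ^ n : ℝ) : ℂ) * Complex.I) ∂PP := by
    rw [charFun_apply_real, bernoulliConv, integral_map (aemeasurable_series h0 h1)]
    fun_prop
  rw [h3]
  simp_rw [h2]
  apply tendsto_integral_of_dominated_convergence (fun _ => (1 : ℝ))
  · intro N
    exact (by fun_prop : Measurable _).aestronglyMeasurable
  · exact integrable_const _
  · intro N
    filter_upwards with ε
    rw [← Complex.ofReal_mul, Complex.norm_exp_ofReal_mul_I]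
  · filter_upwards [tendsto_partial h0 h1] with ε hε
    apply (Complex.continuous_exp.tendsto _).comp
    apply Tendsto.mul_const
    apply Tendsto.const_mul
    exact (Complex.continuous_ofReal.tendsto _).comp hε

theorem norm_charFun_bernoulliConv_le {lam : ℝ} (h0 : 0 < lam) (h1 : lam < 1) (t : ℝ)
    (s : Finset ℕ) :
    ‖charFun (bernoulliConv lam) t‖ ≤ ∏ n ∈ s, |Real.cos (t * lam ^ n)| := by
  have h := (continuous_norm.tendsto _).comp (tendsto_charFun h0 h1 t)
  obtain ⟨M, hM⟩ : ∃ M, s ⊆ Finset.range M := ⟨s.sup id + 1, fun i hi => by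
    rw [Finset.mem_range]
    exact Nat.lt_succ_of_le (Finset.le_sup (f := id) hi)⟩
  apply le_of_tendsto h
  filter_upwards [eventually_ge_atTop M] with N hN
  simp only [Function.comp_apply, norm_prod, Complex.norm_real, Real.norm_eq_abs]
  have hs : s ⊆ Finset.range N := hM.trans (Finset.range_subset_range.mpr hN)
  rw [← Finset.prod_sdiff hs]
  apply mul_le_of_le_one_left (Finset.prod_nonneg fun i _ => abs_nonneg _)
  exact Finset.prod_le_one (fun i _ => abs_nonneg _) (fun i _ => Real.abs_cos_le_one _)

end Vale.Agent.P105
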