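import Vale.Agent.P105.Bootstrap

open scoped ENNReal
open Real Finset

/-! A numerical checker, written with raw recursors so that the kernel evaluates it fast. -/

namespace Vale.Agent.P105

namespace Chk

/-- upper bound for `2^20 * cos (π k / 256)` -/
noncomputable def cosB (k : ℕ) : ℕ :=
  Bool.rec (Nat.succ (Nat.mul (Nat.sub 128 k) 12868))
   (Nat.sub (Nat.succ (Nat.add 1048576 (Nat.div (Nat.mul (Nat.pow k 4) 9910) 10000000)))
     (Nat.div (Nat.mul (Nat.mul k k) 7895) 100))
   (Nat.ble k 103)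

/-- upper bound of `2^20*|cos (π x)|` for `x ∈ [r/den, (r+w)/den]`, `r < den`. -/
noncomputable def cb (r w den : ℕ) : ℕ :=
  Bool.rec
   (Bool.rec 1048576
     (Bool.rec (cosB (Nat.div (Nat.mul 256 (Nat.sub den (Nat.add r w))) den))
        (cosB (Nat.div (Nat.mul 256 r) den))
      (Nat.ble r (Nat.sub den (Nat.add r w))))
     (Nat.ble (Nat.succ (Nat.add r w)) den))
   1048576
   (Nat.beq r 0)

/-- walk backwards -/
noncomputable def walk (p q thr : ℕ) (k : ℕ) : ℕ → ℕ → ℕ → ℕ → ℕ :=
  Nat.rec (motive := fun _ => ℕ → ℕ → ℕ → ℕ → ℕ)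
   (fun num w den acc => Nat.succ (Nat.div (Nat.mul acc (cb (Nat.mod num den) w den)) 1048576))
   (fun _ ih num w den acc =>
    Bool.rec
      (ih (Nat.mul num p) (Nat.mul w p) (Nat.mul den q)
        (Nat.succ (Nat.div (Nat.mul acc (Nat.pow (cb (Nat.mod num den) w den) 2)) 1099511627776)))
      0 (Nat.ble acc thr)) k

/-- bound for the cell `[a/D,(a+1)/D]`, `n ≥ 1` steps. -/
noncomputable def wb (p q D n a thr : ℕ) : ℕ :=
  walk p q thr (Nat.pred n) (Nat.mul a p) p (Nat.mul D q)
    (Nat.mul (cb (Nat.mod a D) 1 D) 1048576)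

/-- maximum -/
noncomputable def mx2 (a b : ℕ) : ℕ := Bool.rec a b (Nat.ble a b)

/-- max over the cells `a = base + i`, `i < cnt`, `alo ≤ a < ahi` -/
noncomputable def pieceMax (p q D n alo ahi base : ℕ) (cnt : ℕ) : ℕ → ℕ :=
  Nat.rec (motive := fun _ => ℕ → ℕ)
   (fun mx => mx)
   (fun i ih mx =>
     Bool.rec mx
      (Bool.rec (ih mx) (ih (mx2 mx (wb p q D n (Nat.add base i) mx)))
        (Nat.ble (Nat.succ (Nat.add base i)) ahi)) (Nat.ble alo (Nat.add base i))) cnt

/-- `m`-th power -/
noncomputable def pw (m v : ℕ) : ℕ :=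
  Nat.succ (Nat.div (Nat.pow v m) (Nat.pow 1099511627776 (Nat.pred m)))

/-- sum over the pieces -/
noncomputable def total (p q D m n alo ahi Llo : ℕ) (c : ℕ) : ℕ :=
  Nat.rec 0 (fun i ih => Nat.add ih (pw m (pieceMax p q D n alo ahi
    (Nat.sub (Nat.mul D (Nat.add Llo i)) (Nat.div D 2)) D 0))) c

/-- total for a set of cells -/
noncomputable def TC (p q D m n alo ahi : ℕ) : ℕ :=
  total p q D m n alo ahi (Nat.div (Nat.add alo (Nat.div D 2)) D)
    (Nat.sub (Nat.succ (Nat.div (Nat.add ahi (Nat.div D 2)) D))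
      (Nat.div (Nat.add alo (Nat.div D 2)) D))

/-- total for the interval `[l/den, u/den)` -/
noncomputable def TI (p q D m n l u den : ℕ) : ℕ :=
  TC p q D m n
    (Nat.div (Nat.mul (Nat.mul D (Nat.pow q n)) l) (Nat.mul den (Nat.pow p n)))
    (Nat.succ (Nat.div (Nat.mul (Nat.mul D (Nat.pow q n)) u) (Nat.mul den (Nat.pow p n))))

/-! ### Soundness -/

lemma cos_le_quartic {x : ℝ} (hx : 0 ≤ x) : Real.cos x ≤ 1 - x ^ 2 / 2 + x ^ 4 / 24 := by
  have hmono : MonotoneOn (fun y : ℝ => 1 - y ^ 2 / 2 + y ^ 4 / 24 - Real.cos y) (Set.Ici 0) := by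
    apply monotoneOn_of_deriv_nonneg (convex_Ici 0)
    · fun_prop
    · fun_prop
    · intro y hy
      rw [interior_Ici] at hy
      have hy' : 0 < y := hy
      have hd : HasDerivAt (fun y : ℝ => 1 - y ^ 2 / 2 + y ^ 4 / 24 - Real.cos y)
          (0 - (2 * y ^ 1) / 2 + (4 * y ^ 3) / 24 - (- Real.sin y)) y := by
        have h1 : HasDerivAt (fun y : ℝ => y ^ 2) (2 * y ^ 1) y := by
          simpa using hasDerivAt_pow 2 y
        have h2 : HasDerivAt (fun y : ℝ => y ^ 4) (4 * y ^ 3) y := by
          simpa using hasDerivAt_pow 4 y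
        exact (((hasDerivAt_const y (1 : ℝ)).sub (h1.div_const 2)).add (h2.div_const 24)).sub
          (Real.hasDerivAt_cos y)
      rw [hd.deriv]
      have := Real.sin_gt_sub_cube hy'
      nlinarith
  have h := hmono (Set.mem_Ici.mpr le_rfl) (Set.mem_Ici.mpr hx) hx
  simp at h
  linarith

lemma natdiv_succ (a b : ℕ) (hb : 0 < b) : (a : ℝ) / b ≤ ((a / b + 1 : ℕ) : ℝ) := by
  rw [div_le_iff₀ (by exact_mod_cast hb)]
  have : a < (a / b + 1) * b := by
    have := Nat.lt_mul_div_succ a hb
    nlinarith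
  exact_mod_cast this.le

lemma natdiv_le (a b : ℕ) : ((a / b : ℕ) : ℝ) ≤ (a : ℝ) / b := Nat.cast_div_le

lemma cosB_eq (k : ℕ) : cosB k = if k ≤ 103 then
    (1048576 + k ^ 4 * 9910 / 10000000 + 1) - k * k * 7895 / 100 else (128 - k) * 12868 + 1 := by
  unfold cosB
  by_cases h : k ≤ 103
  · rw [if_pos h]
    have : Nat.ble k 103 = true := Nat.ble_eq.mpr h
    rw [this]; rfl
  · rw [if_neg h]
    have : Nat.ble k 103 = false := by
      rw [← Bool.not_eq_true, Nat.ble_eq]; exact h
    rw [this]; rfl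

lemma cosB_sound {k : ℕ} (hk : k ≤ 128) {δ : ℝ} (h : (k : ℝ) / 256 ≤ δ) (h2 : δ ≤ 1 / 2) :
    Real.cos (π * δ) * 1048576 ≤ cosB k := by
  have hpi0 := Real.pi_pos
  have hpi1 := Real.pi_gt_d6
  have hpi2 := Real.pi_lt_d6
  have hk0 : (0 : ℝ) ≤ k := Nat.cast_nonneg k
  have hmono : Real.cos (π * δ) ≤ Real.cos (π * (k / 256)) := by
    apply Real.cos_le_cos_of_nonneg_of_le_pi
    · positivity
    · nlinarith
    · exact mul_le_mul_of_nonneg_left h hpi0.le
  refine (mul_le_mul_of_nonneg_right hmono (by norm_num)).trans ?_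
  rw [cosB_eq]
  split_ifs with hk1
  · have hc := cos_le_quartic (x := π * (k / 256)) (by positivity)
    have h4 := natdiv_succ (k ^ 4 * 9910) 10000000 (by norm_num)
    have h5 := natdiv_le (k * k * 7895) 100
    have hsub : k * k * 7895 / 100 ≤ 1048576 + k ^ 4 * 9910 / 10000000 + 1 := by
      have : k * k ≤ 103 * 103 := Nat.mul_le_mul hk1 hk1
      omega
    rw [Nat.cast_sub hsub]
    push_cast at h4 h5 ⊢
    have hA : π ^ 2 ≥ 9.8695 := by nlinarith
    have hA2 : π ^ 2 ≤ 9.8697 := by nlinarith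
    have hB : π ^ 4 ≤ 97.411 := by
      have : π ^ 4 = (π ^ 2) ^ 2 := by ring
      rw [this]; nlinarith
    have hk2 : 0 ≤ (k : ℝ) ^ 2 := by positivity
    have hk4 : 0 ≤ (k : ℝ) ^ 4 := by positivity
    have e1 : (π * ((k : ℝ) / 256)) ^ 2 = π ^ 2 * (k : ℝ) ^ 2 / 65536 := by ring
    have e2 : (π * ((k : ℝ) / 256)) ^ 4 = π ^ 4 * (k : ℝ) ^ 4 / 4294967296 := by ring
    rw [e1, e2] at hc
    have f1 : π ^ 2 * (k : ℝ) ^ 2 ≥ 9.8695 * (k : ℝ) ^ 2 := mul_le_mul_of_nonneg_right hA hk2
    have f2 : π ^ 4 * (k : ℝ) ^ 4 ≤ 97.411 * (k : ℝ) ^ 4 := mul_le_mul_of_nonneg_right hB hk4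
    have e3 : (k : ℝ) * k * 7895 / 100 = (k : ℝ) ^ 2 * 78.95 := by ring
    nlinarith
  · have hc : Real.cos (π * (k / 256)) ≤ π * ((128 - k) / 256) := by
      have : π * ((k : ℝ) / 256) = π / 2 - π * ((128 - k) / 256) := by ring
      rw [this, Real.cos_pi_div_two_sub]
      apply Real.sin_le
      have : (k : ℝ) ≤ 128 := by exact_mod_cast hk
      apply mul_nonneg hpi0.le
      apply div_nonneg <;> linarith
    have hk' : (k : ℝ) ≤ 128 := by exact_mod_cast hk
    push_cast [Nat.cast_sub hk]
    nlinarith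

lemma cb_eq (r w den : ℕ) : cb r w den = if r = 0 then 1048576 else if den ≤ r + w then 1048576
    else cosB (256 * min r (den - (r + w)) / den) := by
  unfold cb
  by_cases h : r = 0
  · rw [if_pos h, h]; rfl
  · rw [if_neg h]
    have : Nat.beq r 0 = false := by
      cases r with
      | zero => exact absurd rfl h
      | succ r => rfl
    rw [this]
    by_cases h2 : den ≤ r + w
    · rw [if_pos h2]
      have : Nat.ble (Nat.succ (Nat.add r w)) den = false := by
        rw [← Bool.not_eq_true, Nat.ble_eq]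
        show ¬ (r + w + 1 ≤ den)
        omega
      rw [this]
    · rw [if_neg h2]
      have : Nat.ble (Nat.succ (Nat.add r w)) den = true := by
        rw [Nat.ble_eq]
        show (r + w + 1 ≤ den)
        omega
      rw [this]
      by_cases h3 : r ≤ den - (r + w)
      · have : Nat.ble r (Nat.sub den (Nat.add r w)) = true := by
          rw [Nat.ble_eq]; exact h3
        rw [this, min_eq_left h3]; rfl
      · have : Nat.ble r (Nat.sub den (Nat.add r w)) = false := by
          rw [← Bool.not_eq_true, Nat.ble_eq]; exact h3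
        rw [this, min_eq_right (by omega)]; rfl

lemma cb_sound {num w den : ℕ} (hden : 0 < den) {x : ℝ} (h1 : (num : ℝ) / den ≤ x)
    (h2 : x ≤ ((num + w : ℕ) : ℝ) / den) :
    |Real.cos (π * x)| * 1048576 ≤ cb (num % den) w den := by
  have hd : (0 : ℝ) < den := by exact_mod_cast hden
  have htriv : |Real.cos (π * x)| * 1048576 ≤ ((1048576 : ℕ) : ℝ) := by
    have := Real.abs_cos_le_one (π * x)
    push_cast; linarith
  rw [cb_eq]
  split_ifs with hr hw
  · exact htriv
  · exact htriv
  · push Not at hw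
    set r := num % den with hrdef
    set t := num / den with htdef
    have hnum : num = den * t + r := (Nat.div_add_mod num den).symm
    have hr0 : 0 < r := Nat.pos_of_ne_zero hr
    have hnumR : (num : ℝ) = den * t + r := by exact_mod_cast hnum
    -- shift
    set y := x - t with hy
    have hcos : |Real.cos (π * x)| = |Real.cos (π * y)| := by
      have : π * x = π * y + t * π := by rw [hy]; ring
      rw [this, Real.cos_add_nat_mul_pi, abs_mul]
      simp
    rw [hcos]
    have hy1 : (r : ℝ) / den ≤ y := by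
      rw [hy]
      rw [hnumR] at h1
      have : ((den : ℝ) * t + r) / den = t + r / den := by field_simp
      linarith
    have hy2 : y ≤ ((r : ℝ) + w) / den := by
      rw [hy]
      push_cast at h2
      rw [hnumR] at h2
      have : ((den : ℝ) * t + r + w) / den = t + (r + w) / den := by field_simp; ring
      linarith
    have hrR : (0 : ℝ) < r := by exact_mod_cast hr0
    have hwR : (r : ℝ) + w < den := by exact_mod_cast hw
    have hwR0 : (0 : ℝ) ≤ w := Nat.cast_nonneg w
    have hy0 : 0 < y := lt_of_lt_of_le (by positivity) hy1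
    have hy3 : y < 1 := lt_of_le_of_lt hy2 (by rw [div_lt_one hd]; exact hwR)
    set M := min r (den - (r + w)) with hM
    have hMr : M ≤ r := min_le_left _ _
    have hMd : M ≤ den - (r + w) := min_le_right _ _
    have hk : 256 * M / den ≤ 128 := by
      apply Nat.le_of_lt_succ
      rw [Nat.div_lt_iff_lt_mul hden]
      omega
    have hkM : (((256 * M / den : ℕ)) : ℝ) / 256 ≤ (M : ℝ) / den := by
      have := natdiv_le (256 * M) den
      push_cast at this
      rw [div_le_iff₀ (by norm_num)]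
      refine this.trans (le_of_eq ?_); ring
    have hMr' : (M : ℝ) ≤ r := by exact_mod_cast hMr
    have hMd' : (M : ℝ) ≤ den - (r + w) := by
      have : M + (r + w) ≤ den := by omega
      have h3 : (M : ℝ) + (r + w) ≤ den := by exact_mod_cast this
      linarith
    rcases le_total y (1 / 2) with hcase | hcase
    · have h5 : (((256 * M / den : ℕ)) : ℝ) / 256 ≤ y := by
        refine hkM.trans (le_trans ?_ hy1)
        exact div_le_div_of_nonneg_right hMr' hd.le
      have := cosB_sound hk h5 hcase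
      rwa [abs_of_nonneg]
      apply Real.cos_nonneg_of_neg_pi_div_two_le_of_le
      · have := Real.pi_pos; nlinarith
      · have := Real.pi_pos; nlinarith
    · have h5 : (((256 * M / den : ℕ)) : ℝ) / 256 ≤ 1 - y := by
        refine hkM.trans ?_
        have : (M : ℝ) / den ≤ (den - (r + w)) / den := div_le_div_of_nonneg_right hMd' hd.le
        have h6 : ((den : ℝ) - (r + w)) / den = 1 - (r + w) / den := by field_simp
        linarith
      have := cosB_sound hk h5 (by linarith)
      have hc : Real.cos (π * y) = - Real.cos (π * (1 - y)) := by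
        have : π * (1 - y) = π - π * y := by ring
        rw [this, Real.cos_pi_sub]; ring
      rw [hc, abs_neg, abs_of_nonneg]
      · exact this
      · apply Real.cos_nonneg_of_neg_pi_div_two_le_of_le
        · have := Real.pi_pos; nlinarith
        · have := Real.pi_pos; nlinarith

/-- the remaining product -/
noncomputable def rprod (lam : ℝ) : ℕ → ℝ → ℝ → ℝ
  | 0, v, z => v * |Real.cos (π * z)|
  | k + 1, v, z => rprod lam k (v * Real.cos (π * z) ^ 2) (lam * z)

lemma rprod_eq (lam : ℝ) (k : ℕ) (v z : ℝ) : rprod lam k v z =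
    v * (∏ i ∈ Finset.range k, Real.cos (π * (lam ^ i * z)) ^ 2) * |Real.cos (π * (lam ^ k * z))| := by
  induction k generalizing v z with
  | zero => simp [rprod]
  | succ k ih =>
    rw [rprod, ih, Finset.prod_range_succ']
    have h1 : ∀ i, lam ^ i * (lam * z) = lam ^ (i + 1) * z := fun i => by rw [pow_succ]; ring
    simp only [h1, pow_zero, one_mul]
    ring

lemma rprod_nonneg (lam : ℝ) (k : ℕ) {v z : ℝ} (hv : 0 ≤ v) : 0 ≤ rprod lam k v z := by
  rw [rprod_eq]; positivity

lemma rprod_le (lam : ℝ) (k : ℕ) {v z : ℝ} (hv : 0 ≤ v) : rprod lam k v z ≤ v := by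
  rw [rprod_eq]
  have h1 : (∏ i ∈ Finset.range k, Real.cos (π * (lam ^ i * z)) ^ 2) ≤ 1 := by
    apply Finset.prod_le_one
    · intro i _; positivity
    · intro i _; exact Real.cos_sq_le_one _
  have h2 : 0 ≤ (∏ i ∈ Finset.range k, Real.cos (π * (lam ^ i * z)) ^ 2) := by positivity
  have h3 := Real.abs_cos_le_one (π * (lam ^ k * z))
  have h4 := abs_nonneg (Real.cos (π * (lam ^ k * z)))
  calc v * (∏ i ∈ Finset.range k, Real.cos (π * (lam ^ i * z)) ^ 2) *
      |Real.cos (π * (lam ^ k * z))| ≤ v * 1 * 1 := by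
        apply mul_le_mul _ h3 h4 (by linarith)
        exact mul_le_mul_of_nonneg_left h1 hv
    _ = v := by ring

lemma walk_zero (p q thr num w den acc : ℕ) : walk p q thr 0 num w den acc =
    acc * cb (num % den) w den / 1048576 + 1 := rfl

lemma walk_succ (p q thr k num w den acc : ℕ) : walk p q thr (k + 1) num w den acc =
    if acc ≤ thr then 0 else walk p q thr k (num * p) (w * p) (den * q)
      (acc * cb (num % den) w den ^ 2 / 1099511627776 + 1) := by
  by_cases h : acc ≤ thr
  · rw [if_pos h]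
    have : Nat.ble acc thr = true := Nat.ble_eq.mpr h
    change @Bool.rec (fun _ => ℕ) _ _ (Nat.ble acc thr) = 0
    rw [this]
  · rw [if_neg h]
    have : Nat.ble acc thr = false := by
      rw [← Bool.not_eq_true, Nat.ble_eq]; exact h
    change @Bool.rec (fun _ => ℕ) _ _ (Nat.ble acc thr) = _
    rw [this]
    rfl

lemma walk_sound {p q : ℕ} (hq : 0 < q) (thr : ℕ) (k : ℕ) :
    ∀ (num w den acc : ℕ) (v z : ℝ), 0 < den → 0 ≤ v → v * 1099511627776 ≤ acc →
      (num : ℝ) / den ≤ z → z ≤ ((num + w : ℕ) : ℝ) / den →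
      rprod ((p : ℝ) / q) k v z * 1099511627776 ≤
        ((max thr (walk p q thr k num w den acc) : ℕ) : ℝ) := by
  induction k with
  | zero =>
    intro num w den acc v z hden hv hacc h1 h2
    rw [walk_zero, rprod]
    have hc := cb_sound hden h1 h2
    have h3 := natdiv_succ (acc * cb (num % den) w den) 1048576 (by norm_num)
    have h4 : (acc : ℝ) * cb (num % den) w den / 1048576 ≤
        ((max thr (acc * cb (num % den) w den / 1048576 + 1) : ℕ) : ℝ) := by
      refine le_trans (by exact_mod_cast h3) ?_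
      exact_mod_cast le_max_right _ _
    refine le_trans ?_ h4
    rw [le_div_iff₀ (by norm_num)]
    have h5 : (v * 1099511627776) * (|Real.cos (π * z)| * 1048576) ≤
        acc * cb (num % den) w den :=
      mul_le_mul hacc hc (by positivity) (by positivity)
    linarith
  | succ k ih =>
    intro num w den acc v z hden hv hacc h1 h2
    rw [walk_succ]
    split_ifs with hthr
    · have h3 := rprod_le ((p : ℝ) / q) (k + 1) (z := z) hv
      have h4 : (acc : ℝ) ≤ thr := by exact_mod_cast hthr
      have h5 : (thr : ℝ) ≤ ((max thr 0 : ℕ) : ℝ) := by exact_mod_cast le_max_left _ _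
      calc rprod ((p : ℝ) / q) (k + 1) v z * 1099511627776 ≤ v * 1099511627776 := by linarith
        _ ≤ _ := hacc.trans (h4.trans h5)
    · rw [rprod]
      have hdR : (0 : ℝ) < den := by exact_mod_cast hden
      have hqR : (0 : ℝ) < q := by exact_mod_cast hq
      apply ih
      · positivity
      · positivity
      · have hc := cb_sound hden h1 h2
        have h3 := natdiv_succ (acc * cb (num % den) w den ^ 2) 1099511627776 (by norm_num)
        refine le_trans ?_ h3
        rw [le_div_iff₀ (by norm_num)]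
        push_cast
        have h6 : (|Real.cos (π * z)| * 1048576) ^ 2 ≤ (cb (num % den) w den : ℝ) ^ 2 :=
          pow_le_pow_left₀ (by positivity) hc 2
        have h5 : (v * 1099511627776) * (|Real.cos (π * z)| * 1048576) ^ 2 ≤
            acc * (cb (num % den) w den : ℝ) ^ 2 :=
          mul_le_mul hacc h6 (by positivity) (by positivity)
        have h7 : (|Real.cos (π * z)| * 1048576) ^ 2 = Real.cos (π * z) ^ 2 * 1048576 ^ 2 := by
          rw [mul_pow, sq_abs]
        rw [h7] at h5
        nlinarith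
      · push_cast
        have : (num : ℝ) * p / (den * q) = p / q * (num / den) := by field_simp
        rw [this]
        exact mul_le_mul_of_nonneg_left h1 (by positivity)
      · push_cast at h2 ⊢
        have : ((num : ℝ) * p + w * p) / (den * q) = p / q * ((num + w) / den) := by field_simp
        rw [this]
        exact mul_le_mul_of_nonneg_left h2 (by positivity)

/-- real weight in terms of the final point. -/
noncomputable def wgt (lam : ℝ) (n : ℕ) (y : ℝ) : ℝ :=
  rprod lam (n - 1) |Real.cos (π * y)| (lam * y)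

lemma wgt_nonneg (lam : ℝ) (n : ℕ) (y : ℝ) : 0 ≤ wgt lam n y := rprod_nonneg _ _ (abs_nonneg _)

lemma wb_sound {p q D n a thr : ℕ} (hq : 0 < q) (hD : 0 < D) {y : ℝ} (h1 : (a : ℝ) / D ≤ y)
    (h2 : y ≤ ((a + 1 : ℕ) : ℝ) / D) :
    wgt ((p : ℝ) / q) n y * 1099511627776 ≤ ((max thr (wb p q D n a thr) : ℕ) : ℝ) := by
  have hDR : (0 : ℝ) < D := by exact_mod_cast hD
  have hqR : (0 : ℝ) < q := by exact_mod_cast hq
  unfold wgt wb
  apply walk_sound hq
  · exact Nat.mul_pos hD hq
  · exact abs_nonneg _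
  · have h3 := cb_sound hD h1 h2
    change _ ≤ ((cb (a % D) 1 D * 1048576 : ℕ) : ℝ)
    push_cast
    nlinarith
  · show (((a * p : ℕ)) : ℝ) / ((D * q : ℕ) : ℝ) ≤ _
    push_cast
    have : (a : ℝ) * p / (D * q) = p / q * (a / D) := by field_simp
    rw [this]
    exact mul_le_mul_of_nonneg_left h1 (by positivity)
  · show _ ≤ (((a * p + p : ℕ)) : ℝ) / ((D * q : ℕ) : ℝ)
    push_cast at h2 ⊢
    have : ((a : ℝ) * p + p) / (D * q) = p / q * ((a + 1) / D) := by field_simp
    rw [this]
    exact mul_le_mul_of_nonneg_left h2 (by positivity)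

/-- link with `ww` -/
lemma ww_eq {θ lam : ℝ} (hθ : lam * θ = 1) {m n : ℕ} (hn : 1 ≤ n) (x : ℝ) :
    ww m θ n x = ENNReal.ofReal (wgt lam n (θ ^ n * x) ^ m) := by
  unfold ww gw wgt
  rw [← ENNReal.ofReal_prod_of_nonneg (fun i _ => by positivity), Finset.prod_pow]
  congr 2
  rw [rprod_eq]
  obtain ⟨k, rfl⟩ : ∃ k, n = k + 1 := ⟨n - 1, by omega⟩
  simp only [Nat.add_sub_cancel]
  have hpow : ∀ i ≤ k, lam ^ i * (lam * (θ ^ (k + 1) * x)) = θ ^ (k - i) * x := by
    intro i hi
    have h1 : θ ^ (k + 1) = θ ^ (i + 1) * θ ^ (k - i) := by rw [← pow_add]; congr 1; omega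
    have h2 : lam ^ (i + 1) * θ ^ (i + 1) = 1 := by rw [← mul_pow, hθ, one_pow]
    calc lam ^ i * (lam * (θ ^ (k + 1) * x)) = (lam ^ (i + 1) * θ ^ (i + 1)) * (θ ^ (k - i) * x) := by
          rw [h1]; ring
      _ = _ := by rw [h2, one_mul]
  rw [hpow k le_rfl]
  have hprod : ∏ i ∈ Finset.range k, Real.cos (π * (lam ^ i * (lam * (θ ^ (k + 1) * x)))) ^ 2 =
      ∏ i ∈ Finset.range k, |Real.cos (π * (θ ^ (i + 1) * x))| ^ 2 := by
    rw [← Finset.prod_range_reflect]
    apply Finset.prod_congr rfl
    intro i hi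
    have hi' := Finset.mem_range.mp hi
    rw [sq_abs, hpow _ (by omega)]
    congr 5
    omega
  rw [hprod]
  simp only [abs_mul]
  rw [Finset.prod_mul_distrib, Finset.prod_range_succ', Finset.prod_range_succ (n := k)]
  have h1 : ∀ i, θ * (θ ^ i * x) = θ ^ (i + 1) * x := fun i => by rw [pow_succ]; ring
  simp only [h1]
  rw [Finset.prod_pow]
  simp only [Nat.sub_self, pow_zero, one_mul]
  ring

end Chk

end Vale.Agent.P105
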