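import Vale.Agent.P105.Check

open scoped ENNReal
open Real Finset

namespace Vale.Agent.P105

namespace Chk

lemma pieceMax_succ (p q D n alo ahi base i mx : ℕ) : pieceMax p q D n alo ahi base (i + 1) mx =
    if alo ≤ base + i then
      (if base + i < ahi then pieceMax p q D n alo ahi base i (max mx (wb p q D n (base + i) mx))
      else pieceMax p q D n alo ahi base i mx)
    else mx := by
  by_cases h : alo ≤ base + i
  · rw [if_pos h]
    have h1 : Nat.ble alo (Nat.add base i) = true := Nat.ble_eq.mpr h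
    change @Bool.rec (fun _ => ℕ) _ _ (Nat.ble alo (Nat.add base i)) = _
    rw [h1]
    by_cases h2 : base + i < ahi
    · rw [if_pos h2]
      have h3 : Nat.ble (Nat.succ (Nat.add base i)) ahi = true := Nat.ble_eq.mpr h2
      change @Bool.rec (fun _ => ℕ) _ _ (Nat.ble (Nat.succ (Nat.add base i)) ahi) = _
      rw [h3]
      have h4 : mx2 mx (wb p q D n (Nat.add base i) mx) = max mx (wb p q D n (base + i) mx) := by
        unfold mx2
        by_cases h5 : mx ≤ wb p q D n (base + i) mx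
        · have h6 : Nat.ble mx (wb p q D n (Nat.add base i) mx) = true := Nat.ble_eq.mpr h5
          rw [h6, max_eq_right h5]; rfl
        · have h6 : Nat.ble mx (wb p q D n (Nat.add base i) mx) = false := by
            rw [← Bool.not_eq_true, Nat.ble_eq]; exact h5
          rw [h6, max_eq_left (not_le.mp h5).le]
      change pieceMax p q D n alo ahi base i (mx2 mx (wb p q D n (Nat.add base i) mx)) = _
      rw [h4]
    · rw [if_neg h2]
      have h3 : Nat.ble (Nat.succ (Nat.add base i)) ahi = false := by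
        rw [← Bool.not_eq_true, Nat.ble_eq]; exact h2
      change @Bool.rec (fun _ => ℕ) _ _ (Nat.ble (Nat.succ (Nat.add base i)) ahi) = _
      rw [h3]
      rfl
  · rw [if_neg h]
    have h1 : Nat.ble alo (Nat.add base i) = false := by
      rw [← Bool.not_eq_true, Nat.ble_eq]; exact h
    change @Bool.rec (fun _ => ℕ) _ _ (Nat.ble alo (Nat.add base i)) = _
    rw [h1]

lemma le_pieceMax (p q D n alo ahi base cnt : ℕ) : ∀ mx,
    mx ≤ pieceMax p q D n alo ahi base cnt mx := by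
  induction cnt with
  | zero => intro mx; exact le_rfl
  | succ i ih =>
    intro mx
    rw [pieceMax_succ]
    split_ifs
    · exact (le_max_left _ _).trans (ih _)
    · exact ih _
    · exact le_rfl

lemma pieceMax_sound {p q D n alo ahi base cnt a : ℕ} (hq : 0 < q) (hD : 0 < D) (ha : base ≤ a)
    (ha2 : a < base + cnt) (halo : alo ≤ a) (hahi : a < ahi) {y : ℝ} (h1 : (a : ℝ) / D ≤ y)
    (h2 : y ≤ ((a + 1 : ℕ) : ℝ) / D) : ∀ mx : ℕ,
    wgt ((p : ℝ) / q) n y * 1099511627776 ≤ ((pieceMax p q D n alo ahi base cnt mx : ℕ) : ℝ) := by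
  induction cnt with
  | zero => omega
  | succ i ih =>
    intro mx
    rw [pieceMax_succ]
    rcases eq_or_lt_of_le (show a ≤ base + i by omega) with hc | hc
    · rw [if_pos (by omega), if_pos (by omega)]
      refine (wb_sound (p := p) (n := n) (thr := mx) hq hD h1 h2).trans ?_
      rw [show base + i = a by omega]
      exact_mod_cast le_pieceMax p q D n alo ahi base i _
    · rw [if_pos (by omega)]
      split_ifs
      · exact ih hc _
      · exact ih hc _

lemma total_eq (p q D m n alo ahi Llo c : ℕ) : total p q D m n alo ahi Llo c =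
    ∑ i ∈ Finset.range c, pw m (pieceMax p q D n alo ahi (D * (Llo + i) - D / 2) D 0) := by
  induction c with
  | zero => rfl
  | succ c ih =>
    rw [Finset.sum_range_succ, ← ih]; rfl

lemma pw_sound {m v : ℕ} (hm : 1 ≤ m) : ((v : ℝ) / 1099511627776) ^ m ≤ (pw m v : ℝ) / 1099511627776 := by
  obtain ⟨k, rfl⟩ : ∃ k, m = k + 1 := ⟨m - 1, by omega⟩
  have h := natdiv_succ (v ^ (k + 1)) (1099511627776 ^ k) (by positivity)
  have h2 : pw (k + 1) v = v ^ (k + 1) / 1099511627776 ^ k + 1 := rfl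
  rw [h2, div_pow, pow_succ (1099511627776 : ℝ) k, ← div_div]
  apply div_le_div_of_nonneg_right _ (by norm_num)
  refine le_trans (le_of_eq ?_) h
  push_cast
  rfl

variable {m : ℕ} {θ : ℝ}

lemma TC_sound {p q D' n alo ahi : ℕ} (hm : 1 ≤ m) (hp : 0 < p) (hq : 0 < q) (hD : 0 < D')
    (hn : 1 ≤ n) (hθ : θ = (q : ℝ) / p) {A : Set ℝ}
    (hA : ∀ x ∈ A, 0 ≤ θ ^ n * x ∧ alo ≤ ⌊((2 * D' : ℕ) : ℝ) * (θ ^ n * x)⌋₊ ∧
      ⌊((2 * D' : ℕ) : ℝ) * (θ ^ n * x)⌋₊ < ahi) :
    TA m θ A n ≤ ENNReal.ofReal ((TC p q (2 * D') m n alo ahi : ℝ) / 1099511627776) := by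
  set D := 2 * D' with hDdef
  have hD0 : 0 < D := by omega
  have hDR : (0 : ℝ) < (D : ℝ) := by exact_mod_cast hD0
  have hD2 : D / 2 = D' := by omega
  have hlam : (p : ℝ) / q * θ = 1 := by
    rw [hθ]; field_simp
  set Llo := (alo + D / 2) / D with hLlo
  set Lhi := (ahi + D / 2) / D with hLhi
  set c := Lhi + 1 - Llo with hc
  set C : ℕ → ℝ≥0∞ := fun i => ENNReal.ofReal
    ((pieceMax p q D n alo ahi (D * (Llo + i) - D / 2) D 0 / 1099511627776 : ℝ) ^ m) with hC
  have key : ∀ K : ℤ, WA m θ A n K ≤ ∑ i ∈ Finset.range c, if K = ((Llo + i : ℕ) : ℤ) then C i else 0 := by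
    intro K
    apply WA_le
    intro x hx hK
    obtain ⟨hy0, ha1, ha2⟩ := hA x hx
    set y := θ ^ n * x with hy
    set a := ⌊(D : ℝ) * y⌋₊ with ha
    have hDy : 0 ≤ (D : ℝ) * y := by positivity
    have h1 : (a : ℝ) ≤ D * y := Nat.floor_le hDy
    have h2 : (D : ℝ) * y < a + 1 := Nat.lt_floor_add_one _
    set k := (a + D / 2) / D with hk
    have hk1 : k * D ≤ a + D' := by rw [hk, ← hD2]; exact Nat.div_mul_le_self _ _
    have hk2 : a + D' < (k + 1) * D := by
      rw [hk, ← hD2]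
      have := Nat.lt_mul_div_succ (a + D / 2) hD0
      rw [mul_comm]; exact this
    have hKk : K = (k : ℤ) := by
      rw [← hK, round_eq_iff]
      have hk1R : (k : ℝ) * D ≤ a + D' := by exact_mod_cast hk1
      have hk2R : (a : ℝ) + D' + 1 ≤ (k + 1) * D := by
        have : a + D' + 1 ≤ (k + 1) * D := hk2
        exact_mod_cast this
      have hDD : (D : ℝ) = 2 * D' := by rw [hDdef]; push_cast; ring
      have hD'R : (0 : ℝ) < D' := by exact_mod_cast hD
      constructor
      · push_cast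
        by_contra hcon
        push Not at hcon
        nlinarith
      · push_cast
        by_contra hcon
        push Not at hcon
        nlinarith
    have hkLlo : Llo ≤ k := Nat.div_le_div_right (by omega)
    have hkLhi : k ≤ Lhi := Nat.div_le_div_right (by omega)
    have hmem : k - Llo ∈ Finset.range c := by rw [Finset.mem_range]; omega
    refine le_trans ?_ (Finset.single_le_sum (f := fun i => if K = ((Llo + i : ℕ) : ℤ) then C i else 0)
      (fun _ _ => zero_le) hmem)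
    have hKi : K = ((Llo + (k - Llo) : ℕ) : ℤ) := by rw [hKk]; congr 1; omega
    change ww m θ n x ≤ if K = ((Llo + (k - Llo) : ℕ) : ℤ) then C (k - Llo) else 0
    rw [if_pos hKi, ww_eq hlam hn]
    apply ENNReal.ofReal_le_ofReal
    apply pow_le_pow_left₀ (wgt_nonneg _ _ _)
    rw [le_div_iff₀ (by norm_num)]
    have hLk : Llo + (k - Llo) = k := by omega
    rw [hLk]
    refine pieceMax_sound (a := a) hq hD0 ?_ ?_ ha1 ha2 ?_ ?_ 0
    · rw [hD2, mul_comm]; omega
    · rw [hD2]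
      rcases Nat.eq_zero_or_pos k with hk0 | hk0
      · rw [hk0]; rw [hk0] at hk2; omega
      · have : D * k ≥ D := Nat.le_mul_of_pos_right _ hk0
        have h3 : (k + 1) * D = D * k + D := by ring
        omega
    · rw [div_le_iff₀ hDR, mul_comm]; exact h1
    · rw [le_div_iff₀ hDR, mul_comm]; push_cast; exact h2.le
  calc TA m θ A n ≤ ∑' K : ℤ, ∑ i ∈ Finset.range c, (if K = ((Llo + i : ℕ) : ℤ) then C i else 0) :=
        ENNReal.tsum_le_tsum key
    _ = ∑ i ∈ Finset.range c, ∑' K : ℤ, (if K = ((Llo + i : ℕ) : ℤ) then C i else 0) :=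
        Summable.tsum_finsetSum (fun i _ => ENNReal.summable)
    _ = ∑ i ∈ Finset.range c, C i := by
        apply Finset.sum_congr rfl
        intro i _
        exact tsum_ite_eq _ _
    _ = ENNReal.ofReal (∑ i ∈ Finset.range c,
          ((pieceMax p q D n alo ahi (D * (Llo + i) - D / 2) D 0 / 1099511627776 : ℝ) ^ m)) := by
        rw [ENNReal.ofReal_sum_of_nonneg]
        intro i _; positivity
    _ ≤ _ := by
        apply ENNReal.ofReal_le_ofReal
        have h3 : TC p q D m n alo ahi = total p q D m n alo ahi Llo c := rfl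
        rw [h3, total_eq]
        push_cast
        rw [Finset.sum_div]
        exact Finset.sum_le_sum (fun i _ => pw_sound hm)

lemma TI_sound {p q D' n l u den : ℕ} (hm : 1 ≤ m) (hp : 0 < p) (hq : 0 < q) (hD : 0 < D')
    (hn : 1 ≤ n) (hden : 0 < den) (hθ : θ = (q : ℝ) / p) {A : Set ℝ}
    (hA : ∀ x ∈ A, (l : ℝ) / den ≤ x ∧ x < (u : ℝ) / den) :
    TA m θ A n ≤ ENNReal.ofReal ((TI p q (2 * D') m n l u den : ℝ) / 1099511627776) := by
  unfold TI
  have hpR : (0 : ℝ) < p := by exact_mod_cast hp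
  have hqR : (0 : ℝ) < q := by exact_mod_cast hq
  have hdR : (0 : ℝ) < den := by exact_mod_cast hden
  have hDR : (0 : ℝ) < ((2 * D' : ℕ) : ℝ) := by
    have : 0 < 2 * D' := by omega
    exact_mod_cast this
  apply TC_sound hm hp hq hD hn hθ
  intro x hx
  obtain ⟨h1, h2⟩ := hA x hx
  have hx0 : 0 ≤ x := le_trans (by positivity) h1
  have hθn : θ ^ n = (q : ℝ) ^ n / (p : ℝ) ^ n := by rw [hθ, div_pow]
  have hθ0 : 0 < θ ^ n := by rw [hθn]; positivity
  have e : ∀ v : ℕ, (((2 * D') * q ^ n * v : ℕ) : ℝ) / ((den * p ^ n : ℕ) : ℝ) =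
      ((2 * D' : ℕ) : ℝ) * (θ ^ n * ((v : ℝ) / den)) := by
    intro v
    rw [hθn]; push_cast; field_simp
  refine ⟨by positivity, ?_, ?_⟩
  · change (2 * D') * q ^ n * l / (den * p ^ n) ≤ _
    apply Nat.le_floor
    refine (natdiv_le _ _).trans ?_
    rw [e]
    exact mul_le_mul_of_nonneg_left (mul_le_mul_of_nonneg_left h1 hθ0.le) hDR.le
  · change _ < (2 * D') * q ^ n * u / (den * p ^ n) + 1
    have h3 := natdiv_succ ((2 * D') * q ^ n * u) (den * p ^ n) (by positivity)
    rw [e] at h3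
    have h4 : ((2 * D' : ℕ) : ℝ) * (θ ^ n * x) < ((2 * D' : ℕ) : ℝ) * (θ ^ n * ((u : ℝ) / den)) :=
      mul_lt_mul_of_pos_left (mul_lt_mul_of_pos_left h2 hθ0) hDR
    have h5 := Nat.floor_le (a := ((2 * D' : ℕ) : ℝ) * (θ ^ n * x)) (by positivity)
    have h6 := h5.trans_lt (h4.trans_le h3)
    exact_mod_cast h6

lemma T_sound {p q D' n : ℕ} (hm : 1 ≤ m) (hp : 0 < p) (hq : 0 < q) (hD : 0 < D')
    (hn : 1 ≤ n) (hθ : θ = (q : ℝ) / p) {K : ℕ} (hK : 1 ≤ K) :
    T m θ n (K : ℤ) ≤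
      ENNReal.ofReal ((TI p q (2 * D') m n (2 * K - 1) (2 * K + 1) 2 : ℝ) / 1099511627776) := by
  apply TI_sound hm hp hq hD hn (by norm_num) hθ
  intro x hx
  have hx' : round x = (K : ℤ) := hx
  rw [round_eq_iff] at hx'
  obtain ⟨h1, h2⟩ := hx'
  push_cast [Nat.cast_sub (show 1 ≤ 2 * K by omega)] at h1 h2 ⊢
  constructor <;> linarith

/-- translation invariance modulo `p^n` -/
lemma T_mod {p q n : ℕ} (hp : 0 < p) (hθ : θ = (q : ℝ) / p) {K K' : ℤ}
    (h : (p : ℤ) ^ n ∣ K - K') : T m θ n K ≤ T m θ n K' := by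
  obtain ⟨t, ht⟩ := h
  have hpR : (0 : ℝ) < p := by exact_mod_cast hp
  apply TA_translate (c := ((p : ℝ) ^ n * t))
  · intro i hi
    refine ⟨(q : ℤ) ^ i * (p : ℤ) ^ (n - i) * t, ?_⟩
    rw [hθ, div_pow]
    have : (p : ℝ) ^ n = (p : ℝ) ^ i * (p : ℝ) ^ (n - i) := by
      rw [← pow_add]; congr 1; omega
    rw [this]; push_cast; field_simp
  · intro x hx
    have hx' : round x = K := hx
    show round (x - (p : ℝ) ^ n * t) = K'
    have : x - (p : ℝ) ^ n * t = x - ((K - K' : ℤ) : ℝ) := by rw [ht]; push_cast; ring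
    rw [this, round_sub_intCast, hx']
    ring

/-- conjunction over an interval of indices -/
noncomputable def allB (f : ℕ → Bool) (lo cnt : ℕ) : Bool :=
  Nat.rec true (fun i ih => Bool.rec false ih (f (Nat.add lo i))) cnt

lemma allB_succ (f : ℕ → Bool) (lo i : ℕ) : allB f lo (i + 1) = true ↔
    f (lo + i) = true ∧ allB f lo i = true := by
  change @Bool.rec (fun _ => Bool) false (allB f lo i) (f (lo + i)) = true ↔ _
  rcases Bool.eq_false_or_eq_true (f (lo + i)) with h | h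
  · rw [h]; simp
  · rw [h]; simp

lemma allB_sound {f : ℕ → Bool} {lo cnt : ℕ} (h : allB f lo cnt = true) :
    ∀ i, lo ≤ i → i < lo + cnt → f i = true := by
  induction cnt with
  | zero => intro i h1 h2; omega
  | succ c ih =>
    rw [allB_succ] at h
    intro i h1 h2
    rcases eq_or_lt_of_le (show i ≤ lo + c by omega) with hc | hc
    · rw [hc]; exact h.1
    · exact ih h.2 i h1 hc

/-- test for one class -/
noncomputable def okT (p q D m n bound K : ℕ) : Bool :=
  Nat.ble (TI p q D m n (Nat.pred (Nat.mul 2 K)) (Nat.succ (Nat.mul 2 K)) 2) bound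

/-- test for the class number `i`, divisible by exactly `s` -/
noncomputable def okS (p q D m n s bound i : ℕ) : Bool :=
  Bool.rec (okT p q D m n bound (Nat.add (Nat.pow p n) (Nat.mul s i))) true
    (Nat.beq (Nat.mod i p) 0)

/-- test for the class number `i` -/
noncomputable def okA (p q D m n bound i : ℕ) : Bool :=
  okT p q D m n bound (Nat.add (Nat.pow p n) i)

lemma okT_sound {p q D' n bound K : ℕ} (hm : 1 ≤ m) (hp : 0 < p) (hq : 0 < q) (hD : 0 < D')
    (hn : 1 ≤ n) (hθ : θ = (q : ℝ) / p) (hK : 1 ≤ K)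
    (h : okT p q (2 * D') m n bound K = true) :
    T m θ n (K : ℤ) ≤ ENNReal.ofReal ((bound : ℝ) / 1099511627776) := by
  refine (T_sound hm hp hq hD hn hθ hK).trans (ENNReal.ofReal_le_ofReal ?_)
  have h1 : TI p q (2 * D') m n (2 * K - 1) (2 * K + 1) 2 ≤ bound := Nat.le_of_ble_eq_true h
  apply div_le_div_of_nonneg_right _ (by norm_num)
  exact_mod_cast h1

lemma classS {p q D' n v n0 bound : ℕ} (hm : 1 ≤ m) (hp : 0 < p) (hq : 0 < q) (hD : 0 < D')
    (hn0 : 1 ≤ n0) (hn : n = v + n0) (hθ : θ = (q : ℝ) / p)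
    (h : ∀ i, i < p ^ n0 → okS p q (2 * D') m n (p ^ v) bound i = true) (K : ℤ)
    (hK1 : (p : ℤ) ^ v ∣ K) (hK2 : ¬ (p : ℤ) ^ (v + 1) ∣ K) :
    T m θ (v + n0) K ≤ ENNReal.ofReal ((bound : ℝ) / 1099511627776) := by
  subst hn
  set P : ℕ := p ^ (v + n0) with hP
  have hP0 : 0 < P := by positivity
  have hPz : ((P : ℕ) : ℤ) = (p : ℤ) ^ (v + n0) := by rw [hP]; push_cast; rfl
  obtain ⟨r, hr⟩ : ∃ r : ℕ, K % (P : ℤ) = (r : ℤ) :=
    ⟨(K % (P : ℤ)).toNat, by rw [Int.toNat_of_nonneg (Int.emod_nonneg _ (by positivity))]⟩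
  have hrP : r < P := by
    have := Int.emod_lt_of_pos K (show (0 : ℤ) < (P : ℤ) by exact_mod_cast hP0)
    rw [hr] at this
    exact_mod_cast this
  have hdiv : (P : ℤ) ∣ K - r := by rw [← hr]; exact Int.dvd_self_sub_emod
  have hvP : (p : ℤ) ^ v ∣ (P : ℤ) := by rw [hPz]; exact pow_dvd_pow _ (by omega)
  have hv1P : (p : ℤ) ^ (v + 1) ∣ (P : ℤ) := by rw [hPz]; exact pow_dvd_pow _ (by omega)
  have hr1 : p ^ v ∣ r := by
    have h1 : (p : ℤ) ^ v ∣ (r : ℤ) := by
      have := dvd_sub hK1 (hvP.trans hdiv)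
      simpa using this
    exact_mod_cast h1
  obtain ⟨i, hi⟩ := hr1
  have hiP : i < p ^ n0 := by
    rw [hi, hP, pow_add] at hrP
    exact lt_of_mul_lt_mul_left hrP (Nat.zero_le _)
  have hip : ¬ p ∣ i := by
    rintro ⟨d, hd⟩
    apply hK2
    have h1 : (p : ℤ) ^ (v + 1) ∣ (r : ℤ) := by
      refine ⟨d, ?_⟩
      rw [hi, hd, pow_succ]; push_cast; ring
    have := dvd_add h1 (hv1P.trans hdiv)
    simpa using this
  have h3 := h i hiP
  unfold okS at h3
  have h4 : Nat.beq (Nat.mod i p) 0 = false := by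
    rw [← Bool.not_eq_true]
    intro h5
    exact hip (Nat.dvd_of_mod_eq_zero (Nat.eq_of_beq_eq_true h5))
  rw [h4] at h3
  have h6 := okT_sound hm hp hq hD (by omega) hθ (K := P + p ^ v * i) (by omega) h3
  refine le_trans ?_ h6
  apply T_mod hp hθ
  rw [← hPz]
  have : K - ((P + p ^ v * i : ℕ) : ℤ) = (K - r) - P := by rw [hi]; push_cast; ring
  rw [this]
  exact dvd_sub hdiv dvd_rfl

lemma classA {p q D' n bound : ℕ} (hm : 1 ≤ m) (hp : 0 < p) (hq : 0 < q) (hD : 0 < D')
    (hn : 1 ≤ n) (hθ : θ = (q : ℝ) / p)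
    (h : ∀ i, i < p ^ n → okA p q (2 * D') m n bound i = true) (K : ℤ) :
    T m θ n K ≤ ENNReal.ofReal ((bound : ℝ) / 1099511627776) := by
  set P : ℕ := p ^ n with hP
  have hP0 : 0 < P := by positivity
  have hPz : ((P : ℕ) : ℤ) = (p : ℤ) ^ n := by rw [hP]; push_cast; rfl
  obtain ⟨r, hr⟩ : ∃ r : ℕ, K % (P : ℤ) = (r : ℤ) :=
    ⟨(K % (P : ℤ)).toNat, by rw [Int.toNat_of_nonneg (Int.emod_nonneg _ (by positivity))]⟩
  have hrP : r < P := by
    have := Int.emod_lt_of_pos K (show (0 : ℤ) < (P : ℤ) by exact_mod_cast hP0)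
    rw [hr] at this
    exact_mod_cast this
  have hdiv : (P : ℤ) ∣ K - r := by rw [← hr]; exact Int.dvd_self_sub_emod
  have h3 := h r hrP
  unfold okA at h3
  have h6 := okT_sound hm hp hq hD hn hθ (K := P + r) (by omega) h3
  refine le_trans ?_ h6
  apply T_mod hp hθ
  rw [← hPz]
  have : K - ((P + r : ℕ) : ℤ) = (K - r) - P := by push_cast; ring
  rw [this]
  exact dvd_sub hdiv dvd_rfl

end Chk

end Vale.Agent.P105
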