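import Vale.Agent.P105.Check2

open scoped ENNReal
open Real Finset

namespace Vale.Agent.P105

namespace Chk

/-- numerical bound for `e0` -/
noncomputable def E0 (p q D m j : ℕ) : ℕ :=
  Nat.add (TI p q D m j p q (Nat.mul 2 q))
    (TI p q D m j (Nat.sub (Nat.mul (Nat.mul 2 q) (Nat.pow p j)) q)
      (Nat.sub (Nat.mul (Nat.mul 2 q) (Nat.pow p j)) p) (Nat.mul 2 q))

/-- numerical bound for `e1` -/
noncomputable def E1 (p q D m j : ℕ) : ℕ :=
  Nat.add (TI p q D m (Nat.succ j) (Nat.mul p p) (Nat.mul p q) (Nat.mul 2 (Nat.mul q q)))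
    (TI p q D m (Nat.succ j)
      (Nat.sub (Nat.mul (Nat.mul 2 (Nat.mul q q)) (Nat.pow p (Nat.succ j))) (Nat.mul p q))
      (Nat.sub (Nat.mul (Nat.mul 2 (Nat.mul q q)) (Nat.pow p (Nat.succ j))) (Nat.mul p p))
      (Nat.mul 2 (Nat.mul q q)))

variable {m : ℕ} {θ : ℝ}

lemma shift_int {p q n : ℕ} (hp : 0 < p) (hθ : θ = (q : ℝ) / p) (i : ℕ) (hi : i ≤ n) :
    ∃ a : ℤ, θ ^ i * (-((p : ℝ) ^ n)) = a := by
  have hpR : (0 : ℝ) < p := by exact_mod_cast hp
  refine ⟨-((q : ℤ) ^ i * (p : ℤ) ^ (n - i)), ?_⟩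
  rw [hθ, div_pow]
  have : (p : ℝ) ^ n = (p : ℝ) ^ i * (p : ℝ) ^ (n - i) := by
    rw [← pow_add]; congr 1; omega
  rw [this]; push_cast; field_simp

/-- a set inside `[l1,u1) ∪ [-u1', -l1')`-type intervals -/
lemma two_sided {p q D' n l u l' u' den : ℕ} (hm : 1 ≤ m) (hp : 0 < p) (hq : 0 < q) (hD : 0 < D')
    (hn : 1 ≤ n) (hden : 0 < den) (hθ : θ = (q : ℝ) / p) {A : Set ℝ}
    (hA : ∀ x ∈ A, ((l : ℝ) / den ≤ x ∧ x < (u : ℝ) / den) ∨
      ((l' : ℝ) / den ≤ x + (p : ℝ) ^ n ∧ x + (p : ℝ) ^ n < (u' : ℝ) / den)) :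
    TA m θ A n ≤ ENNReal.ofReal (((TI p q (2 * D') m n l u den + TI p q (2 * D') m n l' u' den : ℕ) : ℝ)
      / 1099511627776) := by
  have h1 : A ⊆ {x | (l : ℝ) / den ≤ x ∧ x < (u : ℝ) / den} ∪
      {x | (l' : ℝ) / den ≤ x + (p : ℝ) ^ n ∧ x + (p : ℝ) ^ n < (u' : ℝ) / den} :=
    fun x hx => hA x hx
  refine (TA_union h1 n).trans ?_
  push_cast
  rw [add_div]
  refine add_le_ofReal (TI_sound hm hp hq hD hn hden hθ (fun x hx => hx)) ?_
    (by positivity) (by positivity)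
  refine (TA_translate (c := -((p : ℝ) ^ n)) (B := {x | (l' : ℝ) / den ≤ x ∧ x < (u' : ℝ) / den})
    (shift_int hp hθ) ?_).trans (TI_sound hm hp hq hD hn hden hθ (fun x hx => hx))
  intro x hx
  have : x - -((p : ℝ) ^ n) = x + (p : ℝ) ^ n := by ring
  rw [this]
  exact hx

lemma E0_sound {p q D' j : ℕ} (hm : 1 ≤ m) (hp : 0 < p) (hpq : p < q) (hD : 0 < D')
    (hj : 1 ≤ j) (hθ : θ = (q : ℝ) / p) :
    e0 m θ j ≤ ENNReal.ofReal ((E0 p q (2 * D') m j : ℝ) / 1099511627776) := by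
  have hq : 0 < q := by omega
  have hpR : (0 : ℝ) < p := by exact_mod_cast hp
  have hqR : (0 : ℝ) < q := by exact_mod_cast hq
  have hP : 1 ≤ p ^ j := Nat.one_le_pow _ _ hp
  have hle1 : q ≤ 2 * q * p ^ j := by nlinarith
  have hle2 : p ≤ 2 * q * p ^ j := by nlinarith
  refine (two_sided (l := p) (u := q) (l' := 2 * q * p ^ j - q) (u' := 2 * q * p ^ j - p)
    (den := 2 * q) hm hp hq hD hj (by omega) hθ ?_).trans (le_of_eq rfl)
  intro x hx
  obtain ⟨h1, h2⟩ := hx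
  rw [round_eq_zero_iff'] at h1
  rw [Ne, round_eq_zero_iff', hθ] at h2
  push_cast [Nat.cast_sub hle1, Nat.cast_sub hle2]
  have e1 : (q : ℝ) / (2 * q) = 1 / 2 := by field_simp
  have e2 : (2 * (q : ℝ) * (p : ℝ) ^ j - q) / (2 * q) = (p : ℝ) ^ j - 1 / 2 := by field_simp
  have e3 : (2 * (q : ℝ) * (p : ℝ) ^ j - p) / (2 * q) = (p : ℝ) ^ j - p / (2 * q) := by field_simp
  rw [e1, e2, e3]
  rcases le_or_gt 0 x with hx0 | hx0
  · left
    refine ⟨?_, h1.2⟩
    by_contra hcon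
    push Not at hcon
    apply h2
    have h3 : (q : ℝ) / p * x < 1 / 2 := by
      have := mul_lt_mul_of_pos_left hcon (show (0 : ℝ) < (q : ℝ) / p by positivity)
      have h4 : (q : ℝ) / p * ((p : ℝ) / (2 * q)) = 1 / 2 := by field_simp
      linarith
    exact ⟨by have : 0 ≤ (q : ℝ) / p * x := by positivity
              linarith, h3⟩
  · right
    refine ⟨by linarith [h1.1], ?_⟩
    by_contra hcon
    push Not at hcon
    apply h2
    have h3 : -(1 / 2) ≤ (q : ℝ) / p * x := by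
      have := mul_le_mul_of_nonneg_left (show -((p : ℝ) / (2 * q)) ≤ x by linarith)
        (show (0 : ℝ) ≤ (q : ℝ) / p by positivity)
      have h4 : (q : ℝ) / p * (-((p : ℝ) / (2 * q))) = -(1 / 2) := by field_simp
      linarith
    have h5 : (q : ℝ) / p * x < 0 := mul_neg_of_pos_of_neg (by positivity) hx0
    exact ⟨by linarith, by linarith⟩

lemma E1_sound {p q D' j : ℕ} (hm : 1 ≤ m) (hp : 0 < p) (hpq : p < q) (hD : 0 < D')
    (hθ : θ = (q : ℝ) / p) :
    e1 m θ j ≤ ENNReal.ofReal ((E1 p q (2 * D') m j : ℝ) / 1099511627776) := by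
  have hq : 0 < q := by omega
  have hpR : (0 : ℝ) < p := by exact_mod_cast hp
  have hqR : (0 : ℝ) < q := by exact_mod_cast hq
  have hP : 1 ≤ p ^ (j + 1) := Nat.one_le_pow _ _ hp
  have hle1 : p * q ≤ 2 * (q * q) * p ^ (j + 1) := by nlinarith
  have hle2 : p * p ≤ 2 * (q * q) * p ^ (j + 1) := by nlinarith
  refine (two_sided (l := p * p) (u := p * q) (l' := 2 * (q * q) * p ^ (j + 1) - p * q)
    (u' := 2 * (q * q) * p ^ (j + 1) - p * p)
    (den := 2 * (q * q)) hm hp hq hD (by omega) (by positivity) hθ ?_).trans (le_of_eq rfl)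
  intro x hx
  obtain ⟨h1, h2⟩ := hx
  rw [round_eq_zero_iff', hθ] at h1
  rw [Ne, round_eq_zero_iff', hθ] at h2
  push_cast [Nat.cast_sub hle1, Nat.cast_sub hle2]
  set t : ℝ := (q : ℝ) / p with ht
  have ht0 : 0 < t := by positivity
  have e0 : (p : ℝ) * p / (2 * (q * q)) = 1 / (2 * t ^ 2) := by rw [ht]; field_simp
  have e1 : (p : ℝ) * q / (2 * (q * q)) = 1 / (2 * t) := by rw [ht]; field_simp
  have e2 : (2 * ((q : ℝ) * q) * (p : ℝ) ^ (j + 1) - p * q) / (2 * (q * q)) =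
      (p : ℝ) ^ (j + 1) - 1 / (2 * t) := by rw [ht]; field_simp
  have e3 : (2 * ((q : ℝ) * q) * (p : ℝ) ^ (j + 1) - p * p) / (2 * (q * q)) =
      (p : ℝ) ^ (j + 1) - 1 / (2 * t ^ 2) := by rw [ht]; field_simp
  rw [e0, e1, e2, e3]
  have f1 : t * (1 / (2 * t)) = 1 / 2 := by field_simp
  have f2 : t * (t * (1 / (2 * t ^ 2))) = 1 / 2 := by field_simp
  rcases le_or_gt 0 x with hx0 | hx0
  · left
    refine ⟨?_, ?_⟩
    · by_contra hcon
      push Not at hcon
      apply h2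
      have h3 : t * (t * x) < t * (t * (1 / (2 * t ^ 2))) :=
        mul_lt_mul_of_pos_left (mul_lt_mul_of_pos_left hcon ht0) ht0
      have h4 : 0 ≤ t * (t * x) := by positivity
      exact ⟨by linarith, by linarith⟩
    · by_contra hcon
      push Not at hcon
      have h3 : t * (1 / (2 * t)) ≤ t * x := mul_le_mul_of_nonneg_left hcon ht0.le
      linarith [h1.2]
  · right
    refine ⟨?_, ?_⟩
    · by_contra hcon
      push Not at hcon
      have h3 : t * x < t * (-(1 / (2 * t))) := mul_lt_mul_of_pos_left (by linarith) ht0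
      linarith [h1.1]
    · by_contra hcon
      push Not at hcon
      apply h2
      have h3 : t * (t * (-(1 / (2 * t ^ 2)))) ≤ t * (t * x) :=
        mul_le_mul_of_nonneg_left (mul_le_mul_of_nonneg_left (by linarith) ht0.le) ht0.le
      have h4 : t * (t * x) < 0 := mul_neg_of_pos_of_neg ht0 (mul_neg_of_pos_of_neg ht0 hx0)
      exact ⟨by linarith, by linarith⟩

end Chk

end Vale.Agent.P105
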