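import Mathlib

open scoped ENNReal
open Real Finset

namespace Vale.Agent.P105

/-- one-step weight `|cos(πx) cos(πθx)|^m` as an extended nonnegative real. -/
noncomputable def gw (m : ℕ) (θ x : ℝ) : ℝ≥0∞ :=
  ENNReal.ofReal (|Real.cos (π * x) * Real.cos (π * (θ * x))| ^ m)

/-- `n`-step weight. -/
noncomputable def ww (m : ℕ) (θ : ℝ) (n : ℕ) (x : ℝ) : ℝ≥0∞ :=
  ∏ i ∈ Finset.range n, gw m θ (θ ^ i * x)

/-- best weight of a path of `n` steps which starts in `A` and ends in the piece of `K`. -/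
noncomputable def WA (m : ℕ) (θ : ℝ) (A : Set ℝ) (n : ℕ) (K : ℤ) : ℝ≥0∞ :=
  ⨆ x ∈ A, ⨆ (_ : round (θ ^ n * x) = K), ww m θ n x

/-- total weight. -/
noncomputable def TA (m : ℕ) (θ : ℝ) (A : Set ℝ) (n : ℕ) : ℝ≥0∞ := ∑' K : ℤ, WA m θ A n K

/-- the unit piece around the integer `r`. -/
def J (r : ℤ) : Set ℝ := {x | round x = r}

/-- total weight out of the unit piece at `r`. -/
noncomputable def T (m : ℕ) (θ : ℝ) (n : ℕ) (r : ℤ) : ℝ≥0∞ := TA m θ (J r) n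

section basic
variable {m : ℕ} {θ : ℝ}

lemma gw_le_one (x : ℝ) : gw m θ x ≤ 1 := by
  unfold gw
  rw [ENNReal.ofReal_le_one]
  apply pow_le_one₀ (abs_nonneg _)
  rw [abs_mul]
  exact mul_le_one₀ (Real.abs_cos_le_one _) (abs_nonneg _) (Real.abs_cos_le_one _)

lemma ww_le_one (n : ℕ) (x : ℝ) : ww m θ n x ≤ 1 := by
  unfold ww
  exact Finset.prod_le_one' (fun i _ => gw_le_one _)

lemma ww_zero (x : ℝ) : ww m θ 0 x = 1 := by simp [ww]

lemma ww_add (a b : ℕ) (x : ℝ) : ww m θ (a + b) x = ww m θ a x * ww m θ b (θ ^ a * x) := by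
  unfold ww
  rw [Finset.prod_range_add]
  congr 1
  apply Finset.prod_congr rfl
  intro i _
  congr 1
  rw [pow_add]; ring

lemma le_WA {A : Set ℝ} {n : ℕ} {x : ℝ} (hx : x ∈ A) :
    ww m θ n x ≤ WA m θ A n (round (θ ^ n * x)) := by
  unfold WA
  exact le_iSup₂_of_le x hx (le_iSup_of_le rfl le_rfl)

lemma WA_le {A : Set ℝ} {n : ℕ} {K : ℤ} {C : ℝ≥0∞}
    (h : ∀ x ∈ A, round (θ ^ n * x) = K → ww m θ n x ≤ C) : WA m θ A n K ≤ C := by
  unfold WA
  exact iSup₂_le fun x hx => iSup_le fun hK => h x hx hK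

lemma WA_comp (A : Set ℝ) (a b : ℕ) (K : ℤ) :
    WA m θ A (a + b) K ≤ ∑' L : ℤ, WA m θ A a L * WA m θ (J L) b K := by
  apply WA_le
  intro x hx hK
  rw [ww_add]
  have h1 : ww m θ a x ≤ WA m θ A a (round (θ ^ a * x)) := le_WA hx
  have h2 : ww m θ b (θ ^ a * x) ≤ WA m θ (J (round (θ ^ a * x))) b K := by
    have := le_WA (m := m) (θ := θ) (A := J (round (θ ^ a * x))) (n := b) (x := θ ^ a * x) rfl
    have h3 : θ ^ b * (θ ^ a * x) = θ ^ (a + b) * x := by rw [pow_add]; ring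
    rwa [h3, hK] at this
  exact (mul_le_mul' h1 h2).trans (ENNReal.le_tsum (round (θ ^ a * x)))

lemma TA_comp (A : Set ℝ) (a b : ℕ) :
    TA m θ A (a + b) ≤ ∑' L : ℤ, WA m θ A a L * T m θ b L := by
  unfold TA T
  calc ∑' K : ℤ, WA m θ A (a + b) K ≤ ∑' K : ℤ, ∑' L : ℤ, WA m θ A a L * WA m θ (J L) b K :=
        ENNReal.tsum_le_tsum (fun K => WA_comp A a b K)
    _ = ∑' L : ℤ, ∑' K : ℤ, WA m θ A a L * WA m θ (J L) b K := ENNReal.tsum_comm
    _ = ∑' L : ℤ, WA m θ A a L * TA m θ (J L) b := by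
        congr 1; ext L; rw [ENNReal.tsum_mul_left]; rfl

lemma TA_comp_le {A : Set ℝ} {a b : ℕ} {C : ℝ≥0∞}
    (h : ∀ x ∈ A, T m θ b (round (θ ^ a * x)) ≤ C) :
    TA m θ A (a + b) ≤ TA m θ A a * C := by
  refine (TA_comp A a b).trans ?_
  unfold TA
  rw [← ENNReal.tsum_mul_right]
  apply ENNReal.tsum_le_tsum
  intro L
  by_cases hL : ∃ x ∈ A, round (θ ^ a * x) = L
  · obtain ⟨x, hx, rfl⟩ := hL
    exact mul_le_mul' le_rfl (h x hx)
  · have : WA m θ A a L = 0 := by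
      apply le_antisymm _ zero_le
      apply WA_le
      intro x hx hK
      exact absurd ⟨x, hx, hK⟩ hL
    rw [this]; simp

/-- dropping the first `a` steps. -/
lemma WA_drop {A B : Set ℝ} {a b : ℕ} (h : ∀ x ∈ A, θ ^ a * x ∈ B) (K : ℤ) :
    WA m θ A (a + b) K ≤ WA m θ B b K := by
  apply WA_le
  intro x hx hK
  rw [ww_add]
  have h3 : θ ^ b * (θ ^ a * x) = θ ^ (a + b) * x := by rw [pow_add]; ring
  have := le_WA (m := m) (θ := θ) (n := b) (h x hx)
  rw [h3, hK] at this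
  calc ww m θ a x * ww m θ b (θ ^ a * x) ≤ 1 * WA m θ B b K := mul_le_mul' (ww_le_one _ _) this
    _ = _ := one_mul _

lemma TA_drop {A B : Set ℝ} {a b : ℕ} (h : ∀ x ∈ A, θ ^ a * x ∈ B) :
    TA m θ A (a + b) ≤ TA m θ B b :=
  ENNReal.tsum_le_tsum fun K => WA_drop h K

lemma WA_mono {A B : Set ℝ} (h : A ⊆ B) (n : ℕ) (K : ℤ) : WA m θ A n K ≤ WA m θ B n K := by
  apply WA_le
  intro x hx hK
  rw [← hK]
  exact le_WA (h hx)

lemma TA_mono {A B : Set ℝ} (h : A ⊆ B) (n : ℕ) : TA m θ A n ≤ TA m θ B n :=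
  ENNReal.tsum_le_tsum fun K => WA_mono h n K

lemma TA_union {A B C : Set ℝ} (h : A ⊆ B ∪ C) (n : ℕ) :
    TA m θ A n ≤ TA m θ B n + TA m θ C n := by
  unfold TA
  rw [← ENNReal.tsum_add]
  apply ENNReal.tsum_le_tsum
  intro K
  apply WA_le
  intro x hx hK
  rcases h hx with hB | hC
  · exact le_add_right (hK ▸ le_WA hB)
  · exact le_add_left (hK ▸ le_WA hC)

lemma TA_biUnion {ι : Type*} (s : Finset ι) {A : Set ℝ} {B : ι → Set ℝ}
    (h : ∀ x ∈ A, ∃ i ∈ s, x ∈ B i) (n : ℕ) :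
    TA m θ A n ≤ ∑ i ∈ s, TA m θ (B i) n := by
  classical
  unfold TA
  rw [← Summable.tsum_finsetSum (fun i _ => ENNReal.summable)]
  apply ENNReal.tsum_le_tsum
  intro K
  apply WA_le
  intro x hx hK
  obtain ⟨i, hi, hxi⟩ := h x hx
  calc ww m θ n x ≤ WA m θ (B i) n K := hK ▸ le_WA hxi
    _ ≤ ∑ i ∈ s, WA m θ (B i) n K := Finset.single_le_sum (f := fun i => WA m θ (B i) n K)
        (fun _ _ => zero_le) hi

/-- invariance of the cosine weight under integer translation -/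
lemma gw_add_int {x c : ℝ} (h0 : ∃ a : ℤ, c = a) (h1 : ∃ b : ℤ, θ * c = b) :
    gw m θ (x + c) = gw m θ x := by
  obtain ⟨a, ha⟩ := h0
  obtain ⟨b, hb⟩ := h1
  unfold gw
  congr 2
  rw [abs_mul, abs_mul]
  congr 1
  · have : π * (x + c) = π * x + a * π := by rw [ha]; ring
    rw [this, Real.cos_add_int_mul_pi, abs_mul]
    simp
  · have : π * (θ * (x + c)) = π * (θ * x) + b * π := by rw [mul_add, hb]; ring
    rw [this, Real.cos_add_int_mul_pi, abs_mul]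
    simp

lemma ww_add_int {n : ℕ} {x c : ℝ} (h : ∀ i ≤ n, ∃ a : ℤ, θ ^ i * c = a) :
    ww m θ n (x + c) = ww m θ n x := by
  unfold ww
  apply Finset.prod_congr rfl
  intro i hi
  have hi := Finset.mem_range.mp hi
  rw [mul_add]
  apply gw_add_int (h i hi.le)
  obtain ⟨b, hb⟩ := h (i+1) hi
  exact ⟨b, by rw [← hb, pow_succ]; ring⟩

lemma TA_translate {n : ℕ} {c : ℝ} (h : ∀ i ≤ n, ∃ a : ℤ, θ ^ i * c = a) {A B : Set ℝ}
    (hAB : ∀ x ∈ A, x - c ∈ B) : TA m θ A n ≤ TA m θ B n := by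
  obtain ⟨d, hd⟩ := h n le_rfl
  unfold TA
  rw [← (Equiv.addRight d).tsum_eq (fun K => WA m θ A n K)]
  apply ENNReal.tsum_le_tsum
  intro K
  apply WA_le
  intro x hx hK
  have hx' : x = (x - c) + c := by ring
  have hw : ww m θ n x = ww m θ n (x - c) := by
    conv_lhs => rw [hx']
    exact ww_add_int h
  rw [hw]
  have hK' : round (θ ^ n * (x - c)) = K := by
    have : θ ^ n * (x - c) = θ ^ n * x - d := by rw [mul_sub, hd]
    rw [this, round_sub_intCast, hK]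
    simp
  rw [← hK']
  exact le_WA (hAB x hx)

lemma T_zero (r : ℤ) : T m θ 0 r ≤ 1 := by
  unfold T TA
  rw [tsum_eq_single r]
  · apply WA_le
    intro x _ _
    exact ww_le_one _ _
  · intro K hK
    apply le_antisymm _ zero_le
    apply WA_le
    intro x hx hxK
    simp only [pow_zero, one_mul] at hxK
    exact absurd (hxK.symm.trans hx) hK

end basic

end Vale.Agent.P105
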