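import Mathlib

open MeasureTheory ProbabilityTheory

namespace Vale.Agent.P105

/-- The law of a fair random sign: mass `1/2` at `1` and mass `1/2` at `-1`. -/
noncomputable def fairSign : Measure ℝ :=
  (1 / 2 : ENNReal) • Measure.dirac (1 : ℝ) + (1 / 2 : ENNReal) • Measure.dirac (-1 : ℝ)

/-- The Bernoulli convolution `ν_lam`: the law of `∑ n, ε n * lam ^ n`, where the `ε n` are
independent fair random signs. -/
noncomputable def bernoulliConv (lam : ℝ) : Measure ℝ :=
  (Measure.infinitePi (fun _ : ℕ => fairSign)).map (fun ε : ℕ → ℝ => ∑' n, ε n * lam ^ n)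

end Vale.Agent.P105
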