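import Mathlib

open MeasureTheory ProbabilityTheory Filter Real
open scoped ENNReal Topology FourierTransform SchwartzMap ContDiff

namespace Vale.Agent.P105

/-- the `L²` norm of the characteristic function, in the Fourier normalisation. -/
noncomputable def cnorm (μ : Measure ℝ) : ℝ≥0∞ :=
  (∫⁻ ξ : ℝ, ‖charFun μ (-2 * π * ξ)‖ₑ ^ (2 : ℝ)) ^ (1 / (2 : ℝ))

lemma charFun_as_fourier (μ : Measure ℝ) (x : ℝ) :
    VectorFourier.fourierIntegral fourierChar μ (innerₗ ℝ).flip (1 : ℝ → ℂ) x =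
      charFun μ (-2 * π * x) := by
  rw [charFun_eq_fourierIntegral']
  have : -(2 * π)⁻¹ • (-2 * π * x) = x := by
    rw [smul_eq_mul]
    have := Real.pi_ne_zero
    field_simp
  rw [this]
  congr 1
  ext
  simp

lemma fourier_pairing (μ : Measure ℝ) [IsFiniteMeasure μ] (g : 𝓢(ℝ, ℂ)) :
    ∫ x, (𝓕 g) x ∂μ = ∫ ξ, g ξ * charFun μ (-2 * π * ξ) := by
  have h := VectorFourier.integral_bilin_fourierIntegral_eq_flip (μ := (volume : Measure ℝ))
    (ν := μ) (e := fourierChar) (L := innerₗ ℝ) (f := (g : ℝ → ℂ)) (g := (1 : ℝ → ℂ))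
    (ContinuousLinearMap.mul ℂ ℂ) continuous_fourierChar continuous_inner g.integrable
    (integrable_const _)
  simp only [ContinuousLinearMap.mul_apply', Pi.one_apply, mul_one] at h
  simp_rw [charFun_as_fourier] at h
  rw [← h]
  rfl

lemma eLpNorm_fourier (g : 𝓢(ℝ, ℂ)) : eLpNorm (𝓕 g : 𝓢(ℝ, ℂ)) 2 (volume : Measure ℝ) =
    eLpNorm g 2 (volume : Measure ℝ) := by
  have h := SchwartzMap.norm_fourier_toL2_eq g
  rw [SchwartzMap.norm_toLp, SchwartzMap.norm_toLp] at h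
  have h1 : eLpNorm (𝓕 g : 𝓢(ℝ, ℂ)) 2 (volume : Measure ℝ) ≠ ⊤ :=
    (SchwartzMap.eLpNorm_lt_top _ 2 volume).ne
  have h2 : eLpNorm g 2 (volume : Measure ℝ) ≠ ⊤ := (SchwartzMap.eLpNorm_lt_top _ 2 volume).ne
  rw [← ENNReal.ofReal_toReal h1, ← ENNReal.ofReal_toReal h2, h]

lemma enorm_integral_schwartz_le (μ : Measure ℝ) [IsFiniteMeasure μ] (ψ : 𝓢(ℝ, ℂ)) :
    ‖∫ x, ψ x ∂μ‖ₑ ≤ cnorm μ * eLpNorm ψ 2 (volume : Measure ℝ) := by
  obtain ⟨g, hg⟩ : ∃ g : 𝓢(ℝ, ℂ), 𝓕 g = ψ := ⟨𝓕⁻ ψ, FourierTransform.fourier_fourierInv_eq ψ⟩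
  rw [← hg, eLpNorm_fourier, fourier_pairing]
  calc ‖∫ ξ, g ξ * charFun μ (-2 * π * ξ)‖ₑ ≤ ∫⁻ ξ, ‖g ξ * charFun μ (-2 * π * ξ)‖ₑ :=
        enorm_integral_le_lintegral_enorm _
    _ = ∫⁻ ξ, ((fun ξ => ‖charFun μ (-2 * π * ξ)‖ₑ) * (fun ξ => ‖g ξ‖ₑ)) ξ := by
        congr 1; ext ξ; simp [mul_comm]
    _ ≤ (∫⁻ ξ : ℝ, ‖charFun μ (-2 * π * ξ)‖ₑ ^ (2 : ℝ)) ^ (1 / (2 : ℝ)) *
        (∫⁻ ξ : ℝ, ‖g ξ‖ₑ ^ (2 : ℝ)) ^ (1 / (2 : ℝ)) := by
        apply ENNReal.lintegral_mul_le_Lp_mul_Lq _ Real.HolderConjugate.two_two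
        · have : Measurable fun ξ : ℝ => charFun μ (-2 * π * ξ) :=
            measurable_charFun.comp (by fun_prop)
          exact this.enorm.aemeasurable
        · exact g.continuous.measurable.enorm.aemeasurable
    _ = cnorm μ * eLpNorm g 2 (volume : Measure ℝ) := by
        rw [cnorm, eLpNorm_eq_lintegral_rpow_enorm_toReal (by norm_num) (by norm_num)]
        norm_num

lemma lintegral_le_of_bounded (μ : Measure ℝ) [IsProbabilityMeasure μ] (hA : cnorm μ ≠ ⊤)
    {g : ℝ → ℝ} (hg : Measurable g) {M : ℝ} (h0 : ∀ x, 0 ≤ g x) (hM : ∀ x, g x ≤ M)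
    (hL : eLpNorm g 2 (volume : Measure ℝ) ≠ ⊤) :
    ∫⁻ x, ENNReal.ofReal (g x) ∂μ ≤ cnorm μ * eLpNorm g 2 (volume : Measure ℝ) := by
  set G : ℝ → ℂ := fun x => (g x : ℂ) with hG
  have hGm : Measurable G := Complex.measurable_ofReal.comp hg
  have hnorm : ∀ x, ‖G x‖ = ‖g x‖ := fun x => by simp [hG]
  have hGvol : eLpNorm G 2 (volume : Measure ℝ) = eLpNorm g 2 (volume : Measure ℝ) :=
    eLpNorm_congr_norm_ae (Eventually.of_forall hnorm)
  have hGμ : MemLp G 2 μ := by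
    apply MemLp.of_bound hGm.aestronglyMeasurable M
    filter_upwards with x
    rw [hnorm, Real.norm_eq_abs, abs_of_nonneg (h0 x)]
    exact hM x
  have hGv : MemLp G 2 (volume : Measure ℝ) :=
    ⟨hGm.aestronglyMeasurable, by rw [hGvol]; exact hL.lt_top⟩
  have hGsum : MemLp G 2 (μ + volume) := by
    refine ⟨hGm.aestronglyMeasurable, ?_⟩
    rw [eLpNorm_lt_top_iff_lintegral_rpow_enorm_lt_top (by norm_num) (by norm_num),
      lintegral_add_measure]
    have h1 := hGμ.2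
    have h2 := hGv.2
    rw [eLpNorm_lt_top_iff_lintegral_rpow_enorm_lt_top (by norm_num) (by norm_num)] at h1 h2
    exact ENNReal.add_lt_top.mpr ⟨h1, h2⟩
  have hlhs : ∫⁻ x, ENNReal.ofReal (g x) ∂μ = ‖∫ x, G x ∂μ‖ₑ := by
    have h1 : ∫ x, G x ∂μ = ((∫ x, g x ∂μ : ℝ) : ℂ) := integral_ofReal
    have h2 : Integrable g μ := by
      refine ⟨hg.aestronglyMeasurable, ?_⟩
      apply HasFiniteIntegral.of_bounded (C := M)
      filter_upwards with x
      rw [Real.norm_eq_abs, abs_of_nonneg (h0 x)]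
      exact hM x
    rw [h1, ← ofReal_integral_eq_lintegral_ofReal h2 (Eventually.of_forall h0)]
    have h3 : 0 ≤ ∫ x, g x ∂μ := integral_nonneg h0
    rw [← ofReal_norm, Complex.norm_real, Real.norm_eq_abs, abs_of_nonneg h3]
  rw [hlhs]
  apply ENNReal.le_of_forall_pos_le_add
  intro δ hδ _
  set a : ℝ := (cnorm μ).toReal with ha
  have ha0 : 0 ≤ a := ENNReal.toReal_nonneg
  have hcn : cnorm μ = ENNReal.ofReal a := (ENNReal.ofReal_toReal hA).symm
  set ε : ℝ := δ / (a + 1) with hε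
  have hε0 : 0 < ε := by positivity
  have : IsFiniteMeasureOnCompacts (μ + (volume : Measure ℝ)) := ⟨fun K hK => by
    rw [Measure.add_apply]
    exact ENNReal.add_lt_top.mpr ⟨measure_lt_top _ _, hK.measure_lt_top⟩⟩
  obtain ⟨ψ, hψ1, hψ2, hψ3⟩ := hGsum.exist_eLpNorm_sub_le (by norm_num) (by norm_num) hε0
  set Ψ : 𝓢(ℝ, ℂ) := hψ1.toSchwartzMap hψ2 with hΨ
  have hΨψ : ∀ x, Ψ x = ψ x := fun x => rfl
  have hψc : Continuous ψ := hψ2.continuous
  have hμle : eLpNorm (G - ψ) 2 μ ≤ ENNReal.ofReal ε :=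
    (eLpNorm_mono_measure _ (Measure.le_add_right le_rfl)).trans hψ3
  have hvle : eLpNorm (G - ψ) 2 (volume : Measure ℝ) ≤ ENNReal.ofReal ε :=
    (eLpNorm_mono_measure _ (Measure.le_add_left le_rfl)).trans hψ3
  have hsm : ∀ ν : Measure ℝ, AEStronglyMeasurable (G - ψ) ν := fun ν =>
    (hGm.sub hψc.measurable).aestronglyMeasurable
  have hψμ : Integrable ψ μ := by
    have := (SchwartzMap.memLp Ψ ⊤ (μ := (volume : Measure ℝ)))
    obtain ⟨C, hC⟩ := hψc.bounded_above_of_compact_support hψ1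
    refine ⟨hψc.aestronglyMeasurable, ?_⟩
    exact HasFiniteIntegral.of_bounded (C := C) (Eventually.of_forall hC)
  have hGi : Integrable G μ := hGμ.integrable (by norm_num)
  have hsplit : ∫ x, G x ∂μ = ∫ x, Ψ x ∂μ + ∫ x, (G - ψ) x ∂μ := by
    rw [← integral_add]
    · apply integral_congr_ae
      filter_upwards with x
      simp [hΨψ]
    · exact hψμ
    · exact hGi.sub hψμ
  rw [hsplit]
  calc ‖∫ x, Ψ x ∂μ + ∫ x, (G - ψ) x ∂μ‖ₑ ≤ ‖∫ x, Ψ x ∂μ‖ₑ + ‖∫ x, (G - ψ) x ∂μ‖ₑ :=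
        enorm_add_le _ _
    _ ≤ cnorm μ * (eLpNorm g 2 (volume : Measure ℝ) + ENNReal.ofReal ε) + ENNReal.ofReal ε := by
        refine add_le_add ?_ ?_
        · refine (enorm_integral_schwartz_le μ Ψ).trans ?_
          refine mul_le_mul' le_rfl ?_
          rw [← hGvol]
          have : eLpNorm Ψ 2 (volume : Measure ℝ) = eLpNorm (G - (G - ψ)) 2 (volume : Measure ℝ) := by
            congr 1
            ext x
            simp [hΨψ]
          rw [this]
          exact (eLpNorm_sub_le hGm.aestronglyMeasurable (hsm _) (by norm_num)).trans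
            (add_le_add le_rfl hvle)
        · refine (enorm_integral_le_lintegral_enorm _).trans ?_
          rw [← eLpNorm_one_eq_lintegral_enorm]
          exact (eLpNorm_le_eLpNorm_of_exponent_le (by norm_num) (hsm _)).trans hμle
    _ = cnorm μ * eLpNorm g 2 (volume : Measure ℝ) + δ := by
        rw [mul_add, add_assoc]
        congr 1
        rw [hcn, ← ENNReal.ofReal_mul ha0, ← ENNReal.ofReal_add (by positivity) hε0.le]
        have : a * ε + ε = δ := by rw [hε]; field_simp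
        rw [this]
        simp

theorem ac_of_cnorm (μ : Measure ℝ) [IsProbabilityMeasure μ] (hA : cnorm μ ≠ ⊤) :
    μ ≪ (volume : Measure ℝ) := by
  refine Measure.AbsolutelyContinuous.mk fun s hs hs0 => ?_
  set g : ℝ → ℝ := s.indicator (fun _ => 1) with hg
  have hgm : Measurable g := measurable_const.indicator hs
  have hz : eLpNorm g 2 (volume : Measure ℝ) = 0 := by
    rw [eLpNorm_eq_zero_iff hgm.aestronglyMeasurable (by norm_num)]
    rw [hg]
    exact indicator_meas_zero hs0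
  have h := lintegral_le_of_bounded μ hA hgm (M := 1)
    (fun x => Set.indicator_nonneg (fun _ _ => zero_le_one) x)
    (fun x => Set.indicator_le_self' (fun _ _ => zero_le_one) x |>.trans le_rfl)
    (by rw [hz]; exact ENNReal.zero_ne_top)
  rw [hz, mul_zero] at h
  have h2 : ∫⁻ x, ENNReal.ofReal (g x) ∂μ = μ s := by
    rw [← lintegral_indicator_one hs]
    congr 1
    ext x
    by_cases hx : x ∈ s <;> simp [hg, hx]
  rw [h2] at h
  exact le_antisymm h zero_le

/-- truncation of a density -/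
noncomputable def trunc (f : ℝ → ℝ≥0∞) (N : ℕ) (x : ℝ) : ℝ≥0∞ :=
  (Set.Icc (-(N : ℝ)) N).indicator (fun x => min (f x) N) x

lemma measurable_trunc {f : ℝ → ℝ≥0∞} (hf : Measurable f) (N : ℕ) : Measurable (trunc f N) :=
  (hf.min measurable_const).indicator measurableSet_Icc

lemma trunc_le (f : ℝ → ℝ≥0∞) (N : ℕ) (x : ℝ) : trunc f N x ≤ f x := by
  unfold trunc
  by_cases hx : x ∈ Set.Icc (-(N : ℝ)) N
  · rw [Set.indicator_of_mem hx]; exact min_le_left _ _
  · rw [Set.indicator_of_notMem hx]; exact zero_le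

lemma trunc_le_nat (f : ℝ → ℝ≥0∞) (N : ℕ) (x : ℝ) : trunc f N x ≤ N := by
  unfold trunc
  by_cases hx : x ∈ Set.Icc (-(N : ℝ)) N
  · rw [Set.indicator_of_mem hx]; exact min_le_right _ _
  · rw [Set.indicator_of_notMem hx]; exact zero_le

lemma tendsto_trunc (f : ℝ → ℝ≥0∞) (x : ℝ) :
    Tendsto (fun N => trunc f N x) atTop (𝓝 (f x)) := by
  have h1 : Tendsto (fun N : ℕ => min (f x) (N : ℝ≥0∞)) atTop (𝓝 (min (f x) ⊤)) :=
    tendsto_const_nhds.min ENNReal.tendsto_nat_nhds_top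
  rw [min_eq_left le_top] at h1
  apply h1.congr'
  filter_upwards [eventually_ge_atTop ⌈|x|⌉₊] with N hN
  unfold trunc
  rw [Set.indicator_of_mem]
  have : |x| ≤ N := (Nat.le_ceil _).trans (by exact_mod_cast hN)
  exact abs_le.mp this

lemma trunc_sq_finite (f : ℝ → ℝ≥0∞) (N : ℕ) : ∫⁻ x, trunc f N x ^ (2 : ℝ) < ⊤ := by
  calc ∫⁻ x, trunc f N x ^ (2 : ℝ) ≤ ∫⁻ x, (Set.Icc (-(N : ℝ)) N).indicator
        (fun _ => (N : ℝ≥0∞) ^ (2 : ℝ)) x := by
        apply lintegral_mono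
        intro x
        by_cases hx : x ∈ Set.Icc (-(N : ℝ)) N
        · simp only [Set.indicator_of_mem hx]
          exact ENNReal.rpow_le_rpow (trunc_le_nat f N x) (by norm_num)
        · simp [trunc, Set.indicator_of_notMem hx]
    _ = (N : ℝ≥0∞) ^ (2 : ℝ) * volume (Set.Icc (-(N : ℝ)) N) := by
        rw [lintegral_indicator measurableSet_Icc]
        simp
    _ < ⊤ := by
        apply ENNReal.mul_lt_top
        · exact ENNReal.rpow_lt_top_of_nonneg (by norm_num) (ENNReal.natCast_ne_top N)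
        · exact measure_Icc_lt_top

theorem exists_L2_density (μ : Measure ℝ) [IsProbabilityMeasure μ] (hA : cnorm μ ≠ ⊤) :
    ∃ f : ℝ → ℝ≥0∞, Measurable f ∧ ∫⁻ x, f x ^ 2 < ⊤ ∧ μ = volume.withDensity f := by
  set f := μ.rnDeriv volume with hf
  have hfm : Measurable f := Measure.measurable_rnDeriv _ _
  have hμ : μ = volume.withDensity f := (Measure.withDensity_rnDeriv_eq μ volume
    (ac_of_cnorm μ hA)).symm
  refine ⟨f, hfm, ?_, hμ⟩
  have key : ∀ N : ℕ, ∫⁻ x, trunc f N x ^ (2 : ℝ) ≤ cnorm μ ^ (2 : ℝ) := by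
    intro N
    set X := ∫⁻ x, trunc f N x ^ (2 : ℝ) with hX
    have hXfin : X ≠ ⊤ := (trunc_sq_finite f N).ne
    set g : ℝ → ℝ := fun x => (trunc f N x).toReal with hg
    have hgm : Measurable g := (measurable_trunc hfm N).ennreal_toReal
    have htf : ∀ x, trunc f N x ≠ ⊤ := fun x =>
      ((trunc_le_nat f N x).trans_lt (ENNReal.natCast_lt_top N)).ne
    have hgof : ∀ x, ENNReal.ofReal (g x) = trunc f N x := fun x => ENNReal.ofReal_toReal (htf x)
    have hgnorm : eLpNorm g 2 (volume : Measure ℝ) = X ^ (1 / (2 : ℝ)) := by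
      rw [eLpNorm_eq_lintegral_rpow_enorm_toReal (by norm_num) (by norm_num)]
      simp only [ENNReal.toReal_ofNat]
      congr 1
      apply lintegral_congr
      intro x
      rw [Real.enorm_eq_ofReal ENNReal.toReal_nonneg, hgof]
    have hnf : X ^ (1 / (2 : ℝ)) ≠ ⊤ := by
      exact ENNReal.rpow_ne_top_of_nonneg (by norm_num) hXfin
    have h1 := lintegral_le_of_bounded μ hA hgm (M := N) (fun x => ENNReal.toReal_nonneg)
      (fun x => by
        have := ENNReal.toReal_mono (ENNReal.natCast_ne_top N) (trunc_le_nat f N x)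
        simpa using this) (by rw [hgnorm]; exact hnf)
    simp_rw [hgof] at h1
    rw [hgnorm] at h1
    have h2 : X ≤ ∫⁻ x, trunc f N x ∂μ := by
      conv_rhs => rw [hμ]
      rw [lintegral_withDensity_eq_lintegral_mul _ hfm (measurable_trunc hfm N)]
      apply lintegral_mono
      intro x
      simp only [Pi.mul_apply]
      have : trunc f N x ^ (2 : ℝ) = trunc f N x * trunc f N x := by
        rw [ENNReal.rpow_two, sq]
      rw [this]
      exact mul_le_mul' (trunc_le f N x) le_rfl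
    have h3 : X ≤ cnorm μ * X ^ (1 / (2 : ℝ)) := h2.trans h1
    rcases eq_or_ne X 0 with hX0 | hX0
    · rw [hX0]; exact zero_le
    · have hs0 : X ^ (1 / (2 : ℝ)) ≠ 0 := by
        rw [Ne, ENNReal.rpow_eq_zero_iff]
        push Not
        exact ⟨fun h => absurd h hX0, fun h => absurd h hXfin⟩
      have h4 : X = X ^ (1 / (2 : ℝ)) * X ^ (1 / (2 : ℝ)) := by
        rw [← ENNReal.rpow_add _ _ hX0 hXfin]; norm_num
      have h5 : X ^ (1 / (2 : ℝ)) ≤ cnorm μ := by
        rw [← ENNReal.mul_le_mul_iff_left hs0 hnf]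
        rw [← h4]; exact h3
      calc X = (X ^ (1 / (2 : ℝ))) ^ (2 : ℝ) := by
            rw [← ENNReal.rpow_mul]; norm_num
        _ ≤ _ := ENNReal.rpow_le_rpow h5 (by norm_num)
  have hlim : ∀ x, Tendsto (fun N => trunc f N x ^ (2 : ℝ)) atTop (𝓝 (f x ^ (2 : ℝ))) := fun x =>
    (ENNReal.continuous_rpow_const.tendsto _).comp (tendsto_trunc f x)
  have hfat : ∫⁻ x, f x ^ (2 : ℝ) ≤ cnorm μ ^ (2 : ℝ) := by
    calc ∫⁻ x, f x ^ (2 : ℝ) = ∫⁻ x, liminf (fun N => trunc f N x ^ (2 : ℝ)) atTop := by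
          apply lintegral_congr
          intro x
          exact (hlim x).liminf_eq.symm
      _ ≤ liminf (fun N => ∫⁻ x, trunc f N x ^ (2 : ℝ)) atTop :=
          lintegral_liminf_le (fun N => (measurable_trunc hfm N).pow_const _)
      _ ≤ cnorm μ ^ (2 : ℝ) := by
          refine (liminf_le_liminf (Eventually.of_forall key)).trans ?_
          simp
  have h6 : ∫⁻ x, f x ^ 2 = ∫⁻ x, f x ^ (2 : ℝ) := by
    apply lintegral_congr; intro x; rw [ENNReal.rpow_two]
  rw [h6]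
  exact hfat.trans_lt (ENNReal.rpow_lt_top_of_nonneg (by norm_num) hA)

end Vale.Agent.P105
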