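import Vale.Agent.P105.Check3

/-! Kernel computations for the pair (2, 3), exponent 1. -/

namespace Vale.Agent.P105.Chk.N23m1

set_option maxRecDepth 100000

theorem k3 : allB (okS 2 3 32 1 9 8 344818617767) 0 64 = true := by decide +kernel

end Vale.Agent.P105.Chk.N23m1
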