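import Vale.Agent.P105.Check3

/-! Kernel computations for the pair (2, 3), exponent 1. -/

namespace Vale.Agent.P105.Chk.N23m1

set_option maxRecDepth 100000

theorem s1 : allB (okA 2 3 32 1 1 1543712564840) 0 2 = true := by decide +kernel

theorem s2 : allB (okA 2 3 32 1 2 1347539896558) 0 4 = true := by decide +kernel

theorem s3 : allB (okA 2 3 32 1 3 1249493529938) 0 8 = true := by decide +kernel

theorem s4 : allB (okA 2 3 32 1 4 1156003544402) 0 16 = true := by decide +kernel

theorem s5 : allB (okA 2 3 32 1 5 1156006641024) 0 32 = true := by decide +kernel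

theorem s6 : allB (okA 2 3 32 1 6 1152856919271) 0 64 = true := by decide +kernel

end Vale.Agent.P105.Chk.N23m1
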