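import Vale.Agent.P105.Check3

/-! Kernel computations for the pair (2, 3), exponent 1. -/

namespace Vale.Agent.P105.Chk.N23m1

set_option maxRecDepth 100000

theorem ea1 : E0 2 3 64 1 1 ≤ 284500180151 := Nat.le_of_ble_eq_true (by decide +kernel)

theorem eb1 : E1 2 3 64 1 1 ≤ 72113684712 := Nat.le_of_ble_eq_true (by decide +kernel)

theorem ea2 : E0 2 3 64 1 2 ≤ 116497126204 := Nat.le_of_ble_eq_true (by decide +kernel)

theorem eb2 : E1 2 3 64 1 2 ≤ 18516379684 := Nat.le_of_ble_eq_true (by decide +kernel)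

theorem ea3 : E0 2 3 64 1 3 ≤ 62975714020 := Nat.le_of_ble_eq_true (by decide +kernel)

theorem eb3 : E1 2 3 64 1 3 ≤ 9673664026 := Nat.le_of_ble_eq_true (by decide +kernel)

theorem ea4 : E0 2 3 64 1 4 ≤ 17865488827 := Nat.le_of_ble_eq_true (by decide +kernel)

theorem eb4 : E1 2 3 64 1 4 ≤ 4561249196 := Nat.le_of_ble_eq_true (by decide +kernel)

theorem ea5 : E0 2 3 64 1 5 ≤ 16846296386 := Nat.le_of_ble_eq_true (by decide +kernel)

theorem eb5 : E1 2 3 64 1 5 ≤ 4043105482 := Nat.le_of_ble_eq_true (by decide +kernel)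

theorem ea6 : E0 2 3 64 1 6 ≤ 12356078746 := Nat.le_of_ble_eq_true (by decide +kernel)

theorem eb6 : E1 2 3 64 1 6 ≤ 3014024072 := Nat.le_of_ble_eq_true (by decide +kernel)

theorem ea7 : E0 2 3 64 1 7 ≤ 5754335066 := Nat.le_of_ble_eq_true (by decide +kernel)

theorem eb7 : E1 2 3 64 1 7 ≤ 1397117900 := Nat.le_of_ble_eq_true (by decide +kernel)

theorem ea8 : E0 2 3 64 1 8 ≤ 3679426578 := Nat.le_of_ble_eq_true (by decide +kernel)

theorem eb8 : E1 2 3 64 1 8 ≤ 887887524 := Nat.le_of_ble_eq_true (by decide +kernel)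

theorem ea9 : E0 2 3 64 1 9 ≤ 2306408626 := Nat.le_of_ble_eq_true (by decide +kernel)

theorem eb9 : E1 2 3 64 1 9 ≤ 580796874 := Nat.le_of_ble_eq_true (by decide +kernel)

theorem ea10 : E0 2 3 64 1 10 ≤ 1839609036 := Nat.le_of_ble_eq_true (by decide +kernel)

theorem eb10 : E1 2 3 64 1 10 ≤ 446245336 := Nat.le_of_ble_eq_true (by decide +kernel)

theorem ea11 : E0 2 3 64 1 11 ≤ 1444908370 := Nat.le_of_ble_eq_true (by decide +kernel)

theorem eb11 : E1 2 3 64 1 11 ≤ 340868454 := Nat.le_of_ble_eq_true (by decide +kernel)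

theorem ea12 : E0 2 3 64 1 12 ≤ 1182320174 := Nat.le_of_ble_eq_true (by decide +kernel)

theorem eb12 : E1 2 3 64 1 12 ≤ 266931670 := Nat.le_of_ble_eq_true (by decide +kernel)

theorem ea13 : E0 2 3 64 1 13 ≤ 1012646062 := Nat.le_of_ble_eq_true (by decide +kernel)

theorem eb13 : E1 2 3 64 1 13 ≤ 218110892 := Nat.le_of_ble_eq_true (by decide +kernel)

end Vale.Agent.P105.Chk.N23m1
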