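import Vale.Agent.P105.N23m1a
import Vale.Agent.P105.N23m1b
import Vale.Agent.P105.N23m1c
import Vale.Agent.P105.N23m1d
import Vale.Agent.P105.Build

open scoped ENNReal
open Real Finset

namespace Vale.Agent.P105.Chk.N23m1

set_option maxRecDepth 100000

theorem cert : ∃ ρ κh S Sb a0 a1 b0 b1 b2 d0 : ℝ, ∃ κ : ℕ → ℝ,
    Cert 1 2 3 3 6 13 ((3 : ℕ) / (2 : ℕ)) ρ 19 1 κh (381/1000) S Sb a0 a1 b0 b1 b2 d0 (199/500) (126/25) κ := by
  refine mkCert (a := 5) (b := 3) (D' := 16) (DE' := 32)
    (κn := fun v => ([771380360714, 391169181051, 381576841457, 344818617767] : List ℕ).getD v 0)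
    (Sn := fun v => ([1099511627776, 1543712564840, 1347539896558, 1249493529938, 1156003544402, 1156006641024, 1152856919271] : List ℕ).getD v 0)
    (e0n := fun v => ([0, 284500180151, 116497126204, 62975714020, 17865488827, 16846296386, 12356078746, 5754335066, 3679426578, 2306408626, 1839609036, 1444908370, 1182320174, 1012646062] : List ℕ).getD v 0)
    (e1n := fun v => ([0, 72113684712, 18516379684, 9673664026, 4561249196, 4043105482, 3014024072, 1397117900, 887887524, 580796874, 446245336, 340868454, 266931670, 218110892] : List ℕ).getD v 0)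
    (Sbn := 1543712564840) (a0n := 284500180151) (a1n := 17865488827) (b0n := 115841954930) (b1n := 15538226508)
    ?_ ?_ ?_ ?_ ?_ ?_ ?_ ?_ ?_ ?_ ?_ ?_ ?_ ?_ ?_ ?_ ?_ ?_ ?_ ?_ ?_ ?_ ?_ ?_ ?_ ?_ ?_ ?_ ?_ ?_ ?_ ?_ ?_
  · norm_num
  · norm_num
  · norm_num
  · norm_num
  · norm_num
  · norm_num
  · norm_num
  · norm_num
  · norm_num
  · norm_num
  · norm_num
  · norm_num
  · norm_num
  · norm_num
  · norm_num
  · intro v hv i hi
    interval_cases v
    · exact allB_sound k0 i (Nat.zero_le _) (by simpa using hi)
    · exact allB_sound k1 i (Nat.zero_le _) (by simpa using hi)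
    · exact allB_sound k2 i (Nat.zero_le _) (by simpa using hi)
    · exact allB_sound k3 i (Nat.zero_le _) (by simpa using hi)
  · intro n hn1 hn i hi
    interval_cases n
    · exact allB_sound s1 i (Nat.zero_le _) (by simpa using hi)
    · exact allB_sound s2 i (Nat.zero_le _) (by simpa using hi)
    · exact allB_sound s3 i (Nat.zero_le _) (by simpa using hi)
    · exact allB_sound s4 i (Nat.zero_le _) (by simpa using hi)
    · exact allB_sound s5 i (Nat.zero_le _) (by simpa using hi)
    · exact allB_sound s6 i (Nat.zero_le _) (by simpa using hi)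
  · intro n hn
    interval_cases n <;> exact Nat.le_of_ble_eq_true rfl
  · norm_num
  · intro j hj1 hj
    interval_cases j
    · exact ea1
    · exact ea2
    · exact ea3
    · exact ea4
    · exact ea5
    · exact ea6
    · exact ea7
    · exact ea8
    · exact ea9
    · exact ea10
    · exact ea11
    · exact ea12
    · exact ea13
  · intro j hj1 hj
    interval_cases j
    · exact eb1
    · exact eb2
    · exact eb3
    · exact eb4
    · exact eb5
    · exact eb6
    · exact eb7
    · exact eb8
    · exact eb9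
    · exact eb10
    · exact eb11
    · exact eb12
    · exact eb13
  · intro j hj1 hj
    interval_cases j <;> exact Nat.le_of_ble_eq_true rfl
  · intro j hj1 hj
    interval_cases j <;> exact Nat.le_of_ble_eq_true rfl
  · norm_num
  · decide
  · decide
  · norm_num
  · norm_num
  · norm_num
  · norm_num
  · intro v hv
    interval_cases v <;> norm_num
  · norm_num
  · norm_num

theorem bounded : ∃ C : ℝ, ∀ n, T 1 ((3 : ℕ) / (2 : ℕ)) n 0 ≤ ENNReal.ofReal C := by
  obtain ⟨_, _, _, _, _, _, _, _, _, _, _, H⟩ := cert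
  exact ⟨_, H.bounded⟩

end Vale.Agent.P105.Chk.N23m1
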