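import Vale.Agent.P105.N34m1a
import Vale.Agent.P105.Build

open scoped ENNReal
open Real Finset

namespace Vale.Agent.P105.Chk.N34m1

set_option maxRecDepth 100000

theorem cert : ∃ ρ κh S Sb a0 a1 b0 b1 b2 d0 : ℝ, ∃ κ : ℕ → ℝ,
    Cert 1 3 4 2 4 10 ((4 : ℕ) / (3 : ℕ)) ρ 36 1 κh (597/1000) S Sb a0 a1 b0 b1 b2 d0 (177/1000) (243/100) κ := by
  refine mkCert (a := 15) (b := 4) (D' := 16) (DE' := 32)
    (κn := fun v => ([927743254120, 653755999234, 619354766504] : List ℕ).getD v 0)
    (Sn := fun v => ([1099511627776, 1407889602736, 1227002257519, 1137436556468, 1112664157333] : List ℕ).getD v 0)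
    (e0n := fun v => ([0, 157760189678, 36656598606, 29722849324, 11316915360, 2930142926, 1257054988, 585945894, 504221762, 276463128, 123326604] : List ℕ).getD v 0)
    (e1n := fun v => ([0, 26141513861, 3323601234, 2499799028, 1144846314, 393067280, 152966682, 75434558, 67156174, 40889812, 19384672] : List ℕ).getD v 0)
    (Sbn := 1407889602736) (a0n := 157760189678) (a1n := 29722849324) (b0n := 33839274943) (b1n := 4374159848)
    ?_ ?_ ?_ ?_ ?_ ?_ ?_ ?_ ?_ ?_ ?_ ?_ ?_ ?_ ?_ ?_ ?_ ?_ ?_ ?_ ?_ ?_ ?_ ?_ ?_ ?_ ?_ ?_ ?_ ?_ ?_ ?_ ?_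
  · norm_num
  · norm_num
  · norm_num
  · norm_num
  · norm_num
  · norm_num
  · norm_num
  · norm_num
  · norm_num
  · norm_num
  · norm_num
  · norm_num
  · norm_num
  · norm_num
  · norm_num
  · intro v hv i hi
    interval_cases v
    · exact allB_sound k0 i (Nat.zero_le _) (by simpa using hi)
    · exact allB_sound k1 i (Nat.zero_le _) (by simpa using hi)
    · exact allB_sound k2 i (Nat.zero_le _) (by simpa using hi)
  · intro n hn1 hn i hi
    interval_cases n
    · exact allB_sound s1 i (Nat.zero_le _) (by simpa using hi)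
    · exact allB_sound s2 i (Nat.zero_le _) (by simpa using hi)
    · exact allB_sound s3 i (Nat.zero_le _) (by simpa using hi)
    · exact allB_sound s4 i (Nat.zero_le _) (by simpa using hi)
  · intro n hn
    interval_cases n <;> exact Nat.le_of_ble_eq_true rfl
  · norm_num
  · intro j hj1 hj
    interval_cases j
    · exact ea1
    · exact ea2
    · exact ea3
    · exact ea4
    · exact ea5
    · exact ea6
    · exact ea7
    · exact ea8
    · exact ea9
    · exact ea10
  · intro j hj1 hj
    interval_cases j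
    · exact eb1
    · exact eb2
    · exact eb3
    · exact eb4
    · exact eb5
    · exact eb6
    · exact eb7
    · exact eb8
    · exact eb9
    · exact eb10
  · intro j hj1 hj
    interval_cases j <;> exact Nat.le_of_ble_eq_true rfl
  · intro j hj1 hj
    interval_cases j <;> exact Nat.le_of_ble_eq_true rfl
  · norm_num
  · decide
  · decide
  · norm_num
  · norm_num
  · norm_num
  · norm_num
  · intro v hv
    interval_cases v <;> norm_num
  · norm_num
  · norm_num

theorem bounded : ∃ C : ℝ, ∀ n, T 1 ((4 : ℕ) / (3 : ℕ)) n 0 ≤ ENNReal.ofReal C := by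
  obtain ⟨_, _, _, _, _, _, _, _, _, _, _, H⟩ := cert
  exact ⟨_, H.bounded⟩

end Vale.Agent.P105.Chk.N34m1
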