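import Vale.Agent.P105.N45m1a
import Vale.Agent.P105.Build

open scoped ENNReal
open Real Finset

namespace Vale.Agent.P105.Chk.N45m1

set_option maxRecDepth 100000

theorem cert : ∃ ρ κh S Sb a0 a1 b0 b1 b2 d0 : ℝ, ∃ κ : ℕ → ℝ,
    Cert 1 4 5 2 4 9 ((5 : ℕ) / (4 : ℕ)) ρ 130 2 κh (721/1000) S Sb a0 a1 b0 b1 b2 d0 (111/1000) (97/50) κ := by
  refine mkCert (a := 6) (b := 1) (D' := 16) (DE' := 32)
    (κn := fun v => ([1029384668361, 801160733101, 779077728860] : List ℕ).getD v 0)
    (Sn := fun v => ([1099511627776, 1399509457350, 1164264459554, 1114128784941, 1110232445285] : List ℕ).getD v 0)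
    (e0n := fun v => ([0, 105149456208, 15893610796, 10954798448, 8582808726, 2443600908, 571252612, 313664096, 164350724, 49822700] : List ℕ).getD v 0)
    (e1n := fun v => ([0, 13256254336, 921642648, 543412966, 450047718, 172094218, 43312808, 23782252, 11924728, 3365510] : List ℕ).getD v 0)
    (Sbn := 1399509457350) (a0n := 105149456208) (a1n := 10954798448) (b0n := 15422471674) (b1n := 1244574690)
    ?_ ?_ ?_ ?_ ?_ ?_ ?_ ?_ ?_ ?_ ?_ ?_ ?_ ?_ ?_ ?_ ?_ ?_ ?_ ?_ ?_ ?_ ?_ ?_ ?_ ?_ ?_ ?_ ?_ ?_ ?_ ?_ ?_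
  · norm_num
  · norm_num
  · norm_num
  · norm_num
  · norm_num
  · norm_num
  · norm_num
  · norm_num
  · norm_num
  · norm_num
  · norm_num
  · norm_num
  · norm_num
  · norm_num
  · norm_num
  · intro v hv i hi
    interval_cases v
    · exact allB_sound k0 i (Nat.zero_le _) (by simpa using hi)
    · exact allB_sound k1 i (Nat.zero_le _) (by simpa using hi)
    · exact allB_sound k2 i (Nat.zero_le _) (by simpa using hi)
  · intro n hn1 hn i hi
    interval_cases n
    · exact allB_sound s1 i (Nat.zero_le _) (by simpa using hi)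
    · exact allB_sound s2 i (Nat.zero_le _) (by simpa using hi)
    · exact allB_sound s3 i (Nat.zero_le _) (by simpa using hi)
    · exact allB_sound s4 i (Nat.zero_le _) (by simpa using hi)
  · intro n hn
    interval_cases n <;> exact Nat.le_of_ble_eq_true rfl
  · norm_num
  · intro j hj1 hj
    interval_cases j
    · exact ea1
    · exact ea2
    · exact ea3
    · exact ea4
    · exact ea5
    · exact ea6
    · exact ea7
    · exact ea8
    · exact ea9
  · intro j hj1 hj
    interval_cases j
    · exact eb1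
    · exact eb2
    · exact eb3
    · exact eb4
    · exact eb5
    · exact eb6
    · exact eb7
    · exact eb8
    · exact eb9
  · intro j hj1 hj
    interval_cases j <;> exact Nat.le_of_ble_eq_true rfl
  · intro j hj1 hj
    interval_cases j <;> exact Nat.le_of_ble_eq_true rfl
  · norm_num
  · decide
  · decide
  · norm_num
  · norm_num
  · norm_num
  · norm_num
  · intro v hv
    interval_cases v <;> norm_num
  · norm_num
  · norm_num

theorem bounded : ∃ C : ℝ, ∀ n, T 1 ((5 : ℕ) / (4 : ℕ)) n 0 ≤ ENNReal.ofReal C := by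
  obtain ⟨_, _, _, _, _, _, _, _, _, _, _, H⟩ := cert
  exact ⟨_, H.bounded⟩

end Vale.Agent.P105.Chk.N45m1
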