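import Vale.Agent.P105.Integral
import Vale.Agent.P105.N23m1
import Vale.Agent.P105.N34m1
import Vale.Agent.P105.N45m1

open MeasureTheory Real
open scoped ENNReal

namespace Vale.Agent.P105

/-- The general conclusion from boundedness of the transfer weights. -/
theorem density_of_bounded {p q m k : ℕ} (hp : 0 < p) (hpq : p < q) (hm : 1 ≤ m) (hmk : m ≤ k)
    (hT : ∃ C : ℝ, ∀ n, T m ((q : ℝ) / (p : ℝ)) n 0 ≤ ENNReal.ofReal C) {lam : ℝ} (h0 : 0 < lam)
    (hlam : lam ^ k = (p : ℝ) / q) :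
    ∃ f : ℝ → ℝ≥0∞, Measurable f ∧ ∫⁻ x, f x ^ 2 < ⊤ ∧ bernoulliConv lam = volume.withDensity f := by
  obtain ⟨C, hC⟩ := hT
  have hpR : (0 : ℝ) < p := by exact_mod_cast hp
  have hqR : (0 : ℝ) < q := by exact_mod_cast (hp.trans hpq)
  have hpqR : (p : ℝ) < q := by exact_mod_cast hpq
  have h1 : lam < 1 := by
    by_contra hcon
    push Not at hcon
    have h2 : 1 ≤ lam ^ k := one_le_pow₀ hcon
    rw [hlam, one_le_div hqR] at h2
    linarith
  have hθ : 1 < (q : ℝ) / p := by rw [one_lt_div hpR]; exact hpqR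
  have := isProb_bernoulliConv h0 h1
  apply exists_L2_density
  refine cnorm_finite hm hmk hθ h0 h1 ?_ hC
  rw [hlam]; field_simp

end Vale.Agent.P105
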