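import Vale.Agent.P105.Core

open scoped ENNReal
open Real Finset

namespace Vale.Agent.P105

section rounding

lemma round_eq_iff {x : ℝ} {K : ℤ} : round x = K ↔ (K : ℝ) - 1 / 2 ≤ x ∧ x < K + 1 / 2 := by
  rw [round_eq, Int.floor_eq_iff]
  constructor
  · rintro ⟨h1, h2⟩; constructor <;> linarith
  · rintro ⟨h1, h2⟩; constructor <;> linarith

lemma round_eq_zero_iff' {x : ℝ} : round x = 0 ↔ -1 / 2 ≤ x ∧ x < 1 / 2 := by
  rw [round_eq_iff]; norm_num

lemma round_mul_ne_zero {x t : ℝ} (hx : round x ≠ 0) (ht : 1 ≤ t) : round (t * x) ≠ 0 := by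
  intro h
  apply hx
  rw [round_eq_zero_iff'] at h ⊢
  obtain ⟨h1, h2⟩ := h
  constructor
  · by_contra hc
    push Not at hc
    nlinarith
  · by_contra hc
    push Not at hc
    nlinarith

lemma abs_sub_round_le {x : ℝ} : |x - round x| ≤ 1 / 2 := _root_.abs_sub_round x

lemma abs_round_le {x : ℝ} : |(round x : ℝ)| ≤ |x| + 1 / 2 := by
  have h := _root_.abs_sub_round x
  have : (round x : ℝ) = x - (x - round x) := by ring
  rw [this]
  calc |x - (x - round x)| ≤ |x| + |x - round x| := abs_sub _ _
    _ ≤ _ := by linarith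

lemma abs_le_abs_round {x : ℝ} : |x| ≤ |(round x : ℝ)| + 1 / 2 := by
  have h := _root_.abs_sub_round x
  have : x = (round x : ℝ) + (x - round x) := by ring
  calc |x| = |(round x : ℝ) + (x - round x)| := by rw [← this]
    _ ≤ |(round x : ℝ)| + |x - round x| := abs_add_le _ _
    _ ≤ _ := by linarith

end rounding

/-- paths leaving the piece of `0` at the first step. -/
def A0 (θ : ℝ) : Set ℝ := {x | round x = 0 ∧ round (θ * x) ≠ 0}

/-- paths leaving the piece of `0` at the second step. -/
def A1 (θ : ℝ) : Set ℝ := {x | round (θ * x) = 0 ∧ round (θ * (θ * x)) ≠ 0}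

/-- total weight `j` steps after leaving, no history. -/
noncomputable def e0 (m : ℕ) (θ : ℝ) (j : ℕ) : ℝ≥0∞ := TA m θ (A0 θ) j

/-- total weight `j` steps after leaving, one step of history. -/
noncomputable def e1 (m : ℕ) (θ : ℝ) (j : ℕ) : ℝ≥0∞ := TA m θ (A1 θ) (j + 1)

section
variable {m : ℕ} {θ : ℝ}

/-- the main decomposition: the piece of `r`, where `θ^i r` is an integer for all `i ≤ v`. -/
lemma off_lemma {v h n0 : ℕ} {r : ℤ} {S : ℝ≥0∞} (hhv : h ≤ v)
    (hint : ∀ i ≤ v, ∃ a : ℤ, θ ^ i * (r : ℝ) = a)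
    (hS : ∀ K, T m θ n0 K ≤ S) {R : ℤ} (hR : θ ^ (v - h) * (r : ℝ) = R) :
    T m θ (v + n0) r ≤ T m θ (h + n0) R + (e0 m θ v + ∑ j ∈ Finset.Ioo h v, e1 m θ j) * S := by
  -- the sets
  set Ai : ℕ → Set ℝ := fun i => {x | round (θ ^ i * (x - r)) = 0 ∧ round (θ ^ (i + 1) * (x - r)) ≠ 0}
    with hAi
  set Mn : Set ℝ := {x | round (θ ^ (v - h) * (x - r)) = 0} with hMn
  have hcover : J r ⊆ Mn ∪ {x | ∃ i ∈ Finset.range (v - h), x ∈ Ai i} := by
    intro x hx
    by_cases hm : round (θ ^ (v - h) * (x - r)) = 0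
    · exact Or.inl hm
    · right
      have h0 : round (θ ^ 0 * (x - r)) = 0 := by
        have hx' : round x = r := hx
        simp [round_sub_intCast, hx']
      -- find the first nonzero
      classical
      have hex : ∃ n, round (θ ^ n * (x - r)) ≠ 0 := ⟨v - h, hm⟩
      have hf := Nat.find_spec hex
      have hpos : 0 < Nat.find hex := by
        rcases Nat.eq_zero_or_pos (Nat.find hex) with h' | h'
        · rw [h'] at hf; exact absurd h0 hf
        · exact h'
      refine ⟨Nat.find hex - 1, ?_, ?_, ?_⟩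
      · have := Nat.find_min' hex hm
        rw [Finset.mem_range]; omega
      · have := Nat.find_min hex (m := Nat.find hex - 1) (by omega)
        push Not at this
        exact this
      · have : Nat.find hex - 1 + 1 = Nat.find hex := by omega
        rw [this]; exact hf
  have hMain : TA m θ Mn (v + n0) ≤ T m θ (h + n0) R := by
    have : v + n0 = (v - h) + (h + n0) := by omega
    rw [this]
    apply TA_drop
    intro x hx
    have hx' : round (θ ^ (v - h) * (x - r)) = 0 := hx
    show round (θ ^ (v - h) * x) = R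
    have : θ ^ (v - h) * x = θ ^ (v - h) * (x - r) + R := by rw [← hR]; ring
    rw [this, round_add_intCast, hx', zero_add]
  have hA0 : TA m θ (Ai 0) (v + n0) ≤ e0 m θ v * S := by
    refine (TA_comp_le (fun x _ => hS _)).trans (mul_le_mul' ?_ le_rfl)
    apply TA_translate (c := (r : ℝ)) hint
    intro x hx
    simp only [hAi, pow_zero, one_mul, zero_add, pow_one, Set.mem_setOf_eq] at hx
    exact hx
  have hA1 : ∀ i, 1 ≤ i → i < v - h → TA m θ (Ai i) (v + n0) ≤ e1 m θ (v - i) * S := by
    intro i hi1 hi2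
    refine (TA_comp_le (fun x _ => hS _)).trans (mul_le_mul' ?_ le_rfl)
    have hv : v = (i - 1) + (v - i + 1) := by omega
    have hdrop : TA m θ (Ai i) v ≤ TA m θ {y | y - θ ^ (i - 1) * r ∈ A1 θ} (v - i + 1) := by
      conv_lhs => rw [hv]
      apply TA_drop
      intro x hx
      simp only [hAi, Set.mem_setOf_eq] at hx
      have h1 : θ * (θ ^ (i - 1) * x - θ ^ (i - 1) * r) = θ ^ i * (x - r) := by
        have : θ ^ i = θ * θ ^ (i - 1) := by rw [← pow_succ']; congr 1; omega
        rw [this]; ring
      have h2 : θ * (θ * (θ ^ (i - 1) * x - θ ^ (i - 1) * r)) = θ ^ (i + 1) * (x - r) := by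
        rw [h1, pow_succ']; ring
      refine ⟨?_, ?_⟩
      · rw [h1]; exact hx.1
      · rw [h2]; exact hx.2
    refine hdrop.trans ?_
    apply TA_translate (c := θ ^ (i - 1) * r)
    · intro j hj
      have : θ ^ j * (θ ^ (i - 1) * (r : ℝ)) = θ ^ (j + (i - 1)) * r := by rw [pow_add]; ring
      rw [this]
      exact hint _ (by omega)
    · intro x hx
      exact hx
  -- combine
  calc T m θ (v + n0) r = TA m θ (J r) (v + n0) := rfl
    _ ≤ TA m θ Mn (v + n0) + TA m θ {x | ∃ i ∈ Finset.range (v - h), x ∈ Ai i} (v + n0) :=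
        TA_union hcover _
    _ ≤ T m θ (h + n0) R + ∑ i ∈ Finset.range (v - h), TA m θ (Ai i) (v + n0) :=
        add_le_add hMain (TA_biUnion _ (fun x hx => hx) _)
    _ ≤ T m θ (h + n0) R + (e0 m θ v + ∑ j ∈ Finset.Ioo h v, e1 m θ j) * S := by
        refine add_le_add le_rfl ?_
        rcases Nat.eq_zero_or_pos (v - h) with h' | h'
        · rw [h']; simp
        · obtain ⟨k, hk⟩ : ∃ k, v - h = k + 1 := ⟨v - h - 1, by omega⟩
          rw [hk, Finset.sum_range_succ', add_comm, add_mul]
          refine add_le_add hA0 ?_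
          have hsum : ∑ j ∈ Finset.Ioo h v, e1 m θ j = ∑ i ∈ Finset.range k, e1 m θ (v - (i + 1)) := by
            symm
            apply Finset.sum_bij (fun i _ => v - (i + 1))
            · intro i hi
              rw [Finset.mem_range] at hi
              rw [Finset.mem_Ioo]; omega
            · intro a ha b hb hab
              rw [Finset.mem_range] at ha hb
              omega
            · intro j hj
              rw [Finset.mem_Ioo] at hj
              refine ⟨v - j - 1, ?_, ?_⟩
              · rw [Finset.mem_range]; omega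
              · omega
            · intro i _; rfl
          rw [hsum, Finset.sum_mul]
          apply Finset.sum_le_sum
          intro i hi
          rw [Finset.mem_range] at hi
          exact hA1 (i + 1) (by omega) (by omega)

lemma T_translate {n : ℕ} {r : ℤ} (hint : ∀ i ≤ n, ∃ a : ℤ, θ ^ i * (r : ℝ) = a) :
    T m θ n r ≤ T m θ n 0 := by
  apply TA_translate (c := (r : ℝ)) hint
  intro x hx
  have hx' : round x = r := hx
  show round (x - r) = 0
  rw [round_sub_intCast, hx', sub_self]

lemma T_zero_le (n : ℕ) :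
    T m θ n 0 ≤ 1 + (e0 m θ n + ∑ j ∈ Finset.Ioo 0 n, e1 m θ j) := by
  have := off_lemma (m := m) (θ := θ) (v := n) (h := 0) (n0 := 0) (r := 0) (S := 1) (R := 0)
    (Nat.zero_le _) (fun i _ => ⟨0, by simp⟩) (fun K => T_zero K) (by simp)
  simp only [add_zero, mul_one] at this
  exact this.trans (add_le_add (T_zero 0) le_rfl)

end

end Vale.Agent.P105
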