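import Vale.Agent.P105.CharFun
import Vale.Agent.P105.Density
import Vale.Agent.P105.Paths

open MeasureTheory ProbabilityTheory Filter Real
open scoped ENNReal Topology

namespace Vale.Agent.P105

/-- the window at level `n` -/
def win (θ : ℝ) (n : ℕ) : Set ℝ := Set.Ico (-(θ ^ n / 2)) (θ ^ n / 2)

/-- the product weight on the window -/
noncomputable def Pn (m : ℕ) (θ : ℝ) (n : ℕ) (u : ℝ) : ℝ≥0∞ :=
  (win θ n).indicator
    (fun u => ∏ i ∈ Finset.range (n + 1), ENNReal.ofReal (|Real.cos (π * (u / θ ^ i))| ^ (2 * m))) u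

lemma measurable_Pn (m : ℕ) (θ : ℝ) (n : ℕ) : Measurable (Pn m θ n) := by
  apply Measurable.indicator _ measurableSet_Ico
  apply Finset.measurable_fun_prod
  intro i _
  fun_prop

lemma Pn_le {m : ℕ} {θ : ℝ} (hθ : 1 < θ) (n : ℕ) (u : ℝ) :
    Pn m θ n u ≤ WA m θ (J 0) n (round u) := by
  by_cases hu : u ∈ win θ n
  · unfold Pn
    rw [Set.indicator_of_mem hu]
    have hθ0 : 0 < θ := by linarith
    have hθn : 0 < θ ^ n := by positivity
    set x := u / θ ^ n with hx
    have hux : u = θ ^ n * x := by rw [hx]; field_simp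
    have hx0 : x ∈ J 0 := by
      show round x = 0
      rw [round_eq_zero_iff']
      obtain ⟨h1, h2⟩ := hu
      constructor
      · rw [hx, le_div_iff₀ hθn]; linarith
      · rw [hx, div_lt_iff₀ hθn]; linarith
    have hle := le_WA (m := m) (θ := θ) (n := n) hx0
    rw [← hux] at hle
    refine le_trans ?_ hle
    set b : ℕ → ℝ≥0∞ := fun i => ENNReal.ofReal (|Real.cos (π * (θ ^ i * x))| ^ m) with hb
    have hb1 : ∀ i, b i ≤ 1 := fun i => by
      rw [hb]
      simp only [ENNReal.ofReal_le_one]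
      exact pow_le_one₀ (abs_nonneg _) (Real.abs_cos_le_one _)
    have hww : ww m θ n x = (∏ i ∈ Finset.range n, b i) * ∏ i ∈ Finset.range n, b (i + 1) := by
      rw [← Finset.prod_mul_distrib]
      apply Finset.prod_congr rfl
      intro i _
      simp only [hb, gw]
      rw [← ENNReal.ofReal_mul (by positivity), ← mul_pow, ← abs_mul]
      congr 5
      rw [pow_succ]; ring
    have hPn : ∏ i ∈ Finset.range (n + 1), ENNReal.ofReal (|Real.cos (π * (u / θ ^ i))| ^ (2 * m)) =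
        (∏ i ∈ Finset.range (n + 1), b i) * ∏ i ∈ Finset.range (n + 1), b i := by
      rw [← Finset.prod_mul_distrib, ← Finset.prod_range_reflect]
      apply Finset.prod_congr rfl
      intro i hi
      have hi' : i ≤ n := by rw [Finset.mem_range] at hi; omega
      simp only [hb]
      rw [← ENNReal.ofReal_mul (by positivity), ← pow_add, ← two_mul]
      have hpow : θ ^ n = θ ^ i * θ ^ (n + 1 - 1 - i) := by rw [← pow_add]; congr 1; omega
      have : u / θ ^ (n + 1 - 1 - i) = θ ^ i * x := by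
        rw [hux, hpow]; field_simp
      rw [this]
    rw [hPn, hww]
    refine mul_le_mul' ?_ ?_
    · rw [Finset.prod_range_succ]
      exact mul_le_of_le_one_right' (hb1 n)
    · rw [Finset.prod_range_succ']
      exact mul_le_of_le_one_right' (hb1 0)
  · unfold Pn
    rw [Set.indicator_of_notMem hu]
    exact zero_le

lemma volume_round_fiber (K : ℤ) : volume (round ⁻¹' {K} : Set ℝ) = 1 := by
  have : (round ⁻¹' {K} : Set ℝ) = Set.Ico ((K : ℝ) - 1 / 2) (K + 1 / 2) := by
    ext x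
    simp only [Set.mem_preimage, Set.mem_singleton_iff, Set.mem_Ico]
    exact round_eq_iff
  rw [this, Real.volume_Ico]
  norm_num

lemma measurable_round : Measurable (round : ℝ → ℤ) := by
  have : (round : ℝ → ℤ) = fun x => ⌊x + 1 / 2⌋ := by ext x; exact round_eq x
  rw [this]
  exact (measurable_id.add_const _).floor

lemma lintegral_round (g : ℤ → ℝ≥0∞) : ∫⁻ u : ℝ, g (round u) = ∑' K : ℤ, g K := by
  have h1 : ∫⁻ u : ℝ, g (round u) = ∫⁻ K : ℤ, g K ∂(Measure.map (round : ℝ → ℤ) volume) := by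
    rw [lintegral_map (measurable_of_countable g) measurable_round]
  rw [h1, lintegral_countable']
  congr 1
  ext K
  rw [Measure.map_apply measurable_round (MeasurableSet.singleton K), volume_round_fiber, mul_one]

lemma lintegral_Pn_le {m : ℕ} {θ : ℝ} (hθ : 1 < θ) (n : ℕ) : ∫⁻ u, Pn m θ n u ≤ T m θ n 0 := by
  calc ∫⁻ u, Pn m θ n u ≤ ∫⁻ u : ℝ, WA m θ (J 0) n (round u) := lintegral_mono (Pn_le hθ n)
    _ = T m θ n 0 := lintegral_round _

lemma lintegral_Pn_scale {m : ℕ} {θ : ℝ} (hθ : 1 < θ) (n : ℕ) {c : ℝ} (hc : 0 < c) :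
    ∫⁻ u, Pn m θ n (c * u) ≤ ENNReal.ofReal c⁻¹ * T m θ n 0 := by
  have h1 : ∫⁻ u, Pn m θ n (c * u) = ∫⁻ u, Pn m θ n u ∂(Measure.map (c * ·) volume) := by
    rw [lintegral_map (measurable_Pn m θ n) (by fun_prop)]
  rw [h1, Real.map_volume_mul_left hc.ne', lintegral_smul_measure, smul_eq_mul,
    abs_of_pos (by positivity)]
  exact mul_le_mul' le_rfl (lintegral_Pn_le hθ n)

lemma prod_le_sum_pow {m : ℕ} (hm : 1 ≤ m) (a : ℕ → ℝ≥0∞) :
    ∏ r ∈ Finset.range m, a r ≤ ∑ r ∈ Finset.range m, a r ^ m := by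
  obtain ⟨r0, hr0, hmax⟩ := Finset.exists_max_image (Finset.range m) a
    ⟨0, Finset.mem_range.mpr (by omega)⟩
  calc ∏ r ∈ Finset.range m, a r ≤ ∏ r ∈ Finset.range m, a r0 :=
        Finset.prod_le_prod' hmax
    _ = a r0 ^ m := by simp
    _ ≤ ∑ r ∈ Finset.range m, a r ^ m :=
        Finset.single_le_sum (f := fun r => a r ^ m) (fun _ _ => zero_le) hr0

lemma win_scale {θ : ℝ} {n : ℕ} {u c : ℝ} (hu : u ∈ win θ n) (hc0 : 0 < c) (hc1 : c ≤ 1)
    (hθ : 1 < θ) : c * u ∈ win θ n := by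
  obtain ⟨h1, h2⟩ := hu
  have hθn : 0 < θ ^ n := by positivity
  constructor
  · rcases le_total 0 u with h | h
    · have : 0 ≤ c * u := by positivity
      linarith
    · nlinarith
  · rcases le_total 0 u with h | h
    · nlinarith
    · have : c * u ≤ 0 := mul_nonpos_of_nonneg_of_nonpos hc0.le h
      linarith

lemma charFun_sq_le {m k : ℕ} (hm : 1 ≤ m) (hmk : m ≤ k) {θ lam : ℝ} (hθ : 1 < θ) (h0 : 0 < lam)
    (h1 : lam < 1) (hlam : lam ^ k * θ = 1) (n : ℕ) (ξ : ℝ) :
    (win θ n).indicator (fun _ => ‖charFun (bernoulliConv lam) (-2 * π * ξ)‖ₑ ^ (2 : ℝ)) (2 * ξ) ≤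
      ∑ r ∈ Finset.range m, Pn m θ n (2 * lam ^ r * ξ) := by
  by_cases hξ : 2 * ξ ∈ win θ n
  swap
  · rw [Set.indicator_of_notMem hξ]; exact zero_le
  rw [Set.indicator_of_mem hξ]
  have hθ0 : 0 < θ := by linarith
  -- the set of exponents
  set s : Finset ℕ := (Finset.range (n + 1) ×ˢ Finset.range m).image (fun x => k * x.1 + x.2)
    with hs
  have hinj : Set.InjOn (fun x : ℕ × ℕ => k * x.1 + x.2)
      ((Finset.range (n + 1) ×ˢ Finset.range m : Finset (ℕ × ℕ)) : Set (ℕ × ℕ)) := by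
    rintro ⟨i, r⟩ hx ⟨i', r'⟩ hx' heq
    simp only [Finset.coe_product, Finset.coe_range, Set.mem_prod, Set.mem_Iio] at hx hx'
    simp only at heq
    have hr : r < k := by omega
    have hr' : r' < k := by omega
    have e1 : (k * i + r) % k = r := by rw [Nat.mul_add_mod]; exact Nat.mod_eq_of_lt hr
    have e2 : (k * i' + r') % k = r' := by rw [Nat.mul_add_mod]; exact Nat.mod_eq_of_lt hr'
    have hrr : r = r' := by rw [← e1, ← e2, heq]
    have hk0 : 0 < k := by omega
    have hii : i = i' := by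
      have : k * i = k * i' := by omega
      exact Nat.eq_of_mul_eq_mul_left hk0 this
    rw [hrr, hii]
  have hb := norm_charFun_bernoulliConv_le h0 h1 (-2 * π * ξ) s
  rw [hs, Finset.prod_image hinj, Finset.prod_product_right] at hb
  set A : ℕ → ℝ := fun r => ∏ i ∈ Finset.range (n + 1), |Real.cos (π * (2 * lam ^ r * ξ / θ ^ i))|
    with hA
  have hAeq : ∀ r ∈ Finset.range m, ∏ i ∈ Finset.range (n + 1),
      |Real.cos (-2 * π * ξ * lam ^ (k * i + r))| = A r := by
    intro r _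
    apply Finset.prod_congr rfl
    intro i _
    have h2 : lam ^ (k * i) * θ ^ i = 1 := by rw [pow_mul, ← mul_pow, hlam, one_pow]
    have h3 : lam ^ (k * i) = 1 / θ ^ i := by field_simp; exact h2
    have h4 : -2 * π * ξ * lam ^ (k * i + r) = -(π * (2 * lam ^ r * ξ / θ ^ i)) := by
      rw [pow_add, h3]; field_simp
    rw [h4, Real.cos_neg]
  rw [Finset.prod_congr rfl hAeq] at hb
  have hA0 : ∀ r, 0 ≤ A r := fun r => Finset.prod_nonneg fun i _ => abs_nonneg _
  calc ‖charFun (bernoulliConv lam) (-2 * π * ξ)‖ₑ ^ (2 : ℝ)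
      ≤ (ENNReal.ofReal (∏ r ∈ Finset.range m, A r)) ^ (2 : ℝ) := by
        apply ENNReal.rpow_le_rpow _ (by norm_num)
        rw [← ofReal_norm]
        exact ENNReal.ofReal_le_ofReal hb
    _ = ∏ r ∈ Finset.range m, ENNReal.ofReal (A r ^ 2) := by
        rw [ENNReal.rpow_two, ENNReal.ofReal_prod_of_nonneg (fun i _ => hA0 i), ← Finset.prod_pow]
        apply Finset.prod_congr rfl
        intro r _
        rw [ENNReal.ofReal_pow (hA0 r)]
    _ ≤ ∑ r ∈ Finset.range m, ENNReal.ofReal (A r ^ 2) ^ m := prod_le_sum_pow hm _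
    _ = ∑ r ∈ Finset.range m, Pn m θ n (2 * lam ^ r * ξ) := by
        apply Finset.sum_congr rfl
        intro r _
        have hwin : 2 * lam ^ r * ξ ∈ win θ n := by
          have : 2 * lam ^ r * ξ = lam ^ r * (2 * ξ) := by ring
          rw [this]
          exact win_scale hξ (by positivity) (pow_le_one₀ h0.le h1.le) hθ
        unfold Pn
        rw [Set.indicator_of_mem hwin, ← ENNReal.ofReal_pow (by positivity), ← pow_mul,
          ← ENNReal.ofReal_prod_of_nonneg (fun i _ => by positivity), Finset.prod_pow]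

theorem cnorm_finite {m k : ℕ} (hm : 1 ≤ m) (hmk : m ≤ k) {θ lam C : ℝ} (hθ : 1 < θ)
    (h0 : 0 < lam) (h1 : lam < 1) (hlam : lam ^ k * θ = 1)
    (hT : ∀ n, T m θ n 0 ≤ ENNReal.ofReal C) : cnorm (bernoulliConv lam) ≠ ⊤ := by
  have := isProb_bernoulliConv h0 h1
  set F : ℝ → ℝ≥0∞ := fun ξ => ‖charFun (bernoulliConv lam) (-2 * π * ξ)‖ₑ ^ (2 : ℝ) with hF
  have hFm : Measurable F := by
    have : Measurable fun ξ : ℝ => charFun (bernoulliConv lam) (-2 * π * ξ) :=
      measurable_charFun.comp (by fun_prop)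
    exact this.enorm.pow_const _
  set Fn : ℕ → ℝ → ℝ≥0∞ := fun n ξ => ((fun ξ => 2 * ξ) ⁻¹' (win θ n)).indicator F ξ with hFn
  have hFnm : ∀ n, Measurable (Fn n) := fun n =>
    hFm.indicator (measurableSet_Ico.preimage (by fun_prop))
  have hbound : ∀ n, ∫⁻ ξ, Fn n ξ ≤
      ∑ r ∈ Finset.range m, ENNReal.ofReal (2 * lam ^ r)⁻¹ * ENNReal.ofReal C := by
    intro n
    calc ∫⁻ ξ, Fn n ξ ≤ ∫⁻ ξ, ∑ r ∈ Finset.range m, Pn m θ n (2 * lam ^ r * ξ) := by
          apply lintegral_mono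
          intro ξ
          exact charFun_sq_le hm hmk hθ h0 h1 hlam n ξ
      _ = ∑ r ∈ Finset.range m, ∫⁻ ξ, Pn m θ n (2 * lam ^ r * ξ) := by
          rw [lintegral_finsetSum]
          intro r _
          exact (measurable_Pn m θ n).comp (by fun_prop)
      _ ≤ _ := by
          apply Finset.sum_le_sum
          intro r _
          exact (lintegral_Pn_scale hθ n (by positivity)).trans (mul_le_mul' le_rfl (hT n))
  have hlim : ∀ ξ, Tendsto (fun n => Fn n ξ) atTop (𝓝 (F ξ)) := by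
    intro ξ
    apply tendsto_const_nhds.congr'
    have h2 : Tendsto (fun n : ℕ => θ ^ n) atTop atTop := tendsto_pow_atTop_atTop_of_one_lt hθ
    filter_upwards [h2.eventually_gt_atTop (4 * |ξ|)] with n hn
    simp only [hFn]
    rw [Set.indicator_of_mem]
    show 2 * ξ ∈ win θ n
    have h3 := abs_lt.mp (show |2 * ξ| < θ ^ n / 2 by rw [abs_mul, abs_two]; linarith)
    exact ⟨h3.1.le, h3.2⟩
  have hfat : ∫⁻ ξ, F ξ ≤ ∑ r ∈ Finset.range m, ENNReal.ofReal (2 * lam ^ r)⁻¹ * ENNReal.ofReal C := by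
    calc ∫⁻ ξ, F ξ = ∫⁻ ξ, liminf (fun n => Fn n ξ) atTop := by
          apply lintegral_congr
          intro ξ
          exact (hlim ξ).liminf_eq.symm
      _ ≤ liminf (fun n => ∫⁻ ξ, Fn n ξ) atTop := lintegral_liminf_le hFnm
      _ ≤ _ := by
          refine (liminf_le_liminf (Eventually.of_forall hbound)).trans ?_
          simp
  have hfin : ∫⁻ ξ, F ξ ≠ ⊤ := by
    apply ne_top_of_le_ne_top _ hfat
    rw [ENNReal.sum_ne_top]
    intro r _
    exact ENNReal.mul_ne_top ENNReal.ofReal_ne_top ENNReal.ofReal_ne_top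
  unfold cnorm
  exact ENNReal.rpow_ne_top_of_nonneg (by norm_num) hfin

end Vale.Agent.P105
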