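import Vale.Agent.P105.Check3

/-! Kernel computations for the pair (2, 3), exponent 1. -/

namespace Vale.Agent.P105.Chk.N23m1

set_option maxRecDepth 100000

theorem k0 : allB (okS 2 3 32 1 6 1 771380360714) 0 64 = true := by decide +kernel

theorem k1 : allB (okS 2 3 32 1 7 2 391169181051) 0 64 = true := by decide +kernel

theorem k2 : allB (okS 2 3 32 1 8 4 381576841457) 0 64 = true := by decide +kernel

end Vale.Agent.P105.Chk.N23m1
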