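import Vale.Agent.P105.Check3

/-! Kernel computations for the pair (3, 4), exponent 1. -/

namespace Vale.Agent.P105.Chk.N34m1

set_option maxRecDepth 100000

theorem k0 : allB (okS 3 4 32 1 4 1 927743254120) 0 81 = true := by decide +kernel

theorem k1 : allB (okS 3 4 32 1 5 3 653755999234) 0 81 = true := by decide +kernel

theorem k2 : allB (okS 3 4 32 1 6 9 619354766504) 0 81 = true := by decide +kernel

theorem s1 : allB (okA 3 4 32 1 1 1407889602736) 0 3 = true := by decide +kernel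

theorem s2 : allB (okA 3 4 32 1 2 1227002257519) 0 9 = true := by decide +kernel

theorem s3 : allB (okA 3 4 32 1 3 1137436556468) 0 27 = true := by decide +kernel

theorem s4 : allB (okA 3 4 32 1 4 1112664157333) 0 81 = true := by decide +kernel

theorem ea1 : E0 3 4 64 1 1 ≤ 157760189678 := Nat.le_of_ble_eq_true (by decide +kernel)

theorem eb1 : E1 3 4 64 1 1 ≤ 26141513861 := Nat.le_of_ble_eq_true (by decide +kernel)

theorem ea2 : E0 3 4 64 1 2 ≤ 36656598606 := Nat.le_of_ble_eq_true (by decide +kernel)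

theorem eb2 : E1 3 4 64 1 2 ≤ 3323601234 := Nat.le_of_ble_eq_true (by decide +kernel)

theorem ea3 : E0 3 4 64 1 3 ≤ 29722849324 := Nat.le_of_ble_eq_true (by decide +kernel)

theorem eb3 : E1 3 4 64 1 3 ≤ 2499799028 := Nat.le_of_ble_eq_true (by decide +kernel)

theorem ea4 : E0 3 4 64 1 4 ≤ 11316915360 := Nat.le_of_ble_eq_true (by decide +kernel)

theorem eb4 : E1 3 4 64 1 4 ≤ 1144846314 := Nat.le_of_ble_eq_true (by decide +kernel)

theorem ea5 : E0 3 4 64 1 5 ≤ 2930142926 := Nat.le_of_ble_eq_true (by decide +kernel)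

theorem eb5 : E1 3 4 64 1 5 ≤ 393067280 := Nat.le_of_ble_eq_true (by decide +kernel)

theorem ea6 : E0 3 4 64 1 6 ≤ 1257054988 := Nat.le_of_ble_eq_true (by decide +kernel)

theorem eb6 : E1 3 4 64 1 6 ≤ 152966682 := Nat.le_of_ble_eq_true (by decide +kernel)

theorem ea7 : E0 3 4 64 1 7 ≤ 585945894 := Nat.le_of_ble_eq_true (by decide +kernel)

theorem eb7 : E1 3 4 64 1 7 ≤ 75434558 := Nat.le_of_ble_eq_true (by decide +kernel)

theorem ea8 : E0 3 4 64 1 8 ≤ 504221762 := Nat.le_of_ble_eq_true (by decide +kernel)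

theorem eb8 : E1 3 4 64 1 8 ≤ 67156174 := Nat.le_of_ble_eq_true (by decide +kernel)

theorem ea9 : E0 3 4 64 1 9 ≤ 276463128 := Nat.le_of_ble_eq_true (by decide +kernel)

theorem eb9 : E1 3 4 64 1 9 ≤ 40889812 := Nat.le_of_ble_eq_true (by decide +kernel)

theorem ea10 : E0 3 4 64 1 10 ≤ 123326604 := Nat.le_of_ble_eq_true (by decide +kernel)

theorem eb10 : E1 3 4 64 1 10 ≤ 19384672 := Nat.le_of_ble_eq_true (by decide +kernel)

end Vale.Agent.P105.Chk.N34m1
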