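import Vale.Agent.P105.Check3

/-! Kernel computations for the pair (4, 5), exponent 1. -/

namespace Vale.Agent.P105.Chk.N45m1

set_option maxRecDepth 100000

theorem k0 : allB (okS 4 5 32 1 4 1 1029384668361) 0 256 = true := by decide +kernel

theorem k1 : allB (okS 4 5 32 1 5 4 801160733101) 0 256 = true := by decide +kernel

theorem k2 : allB (okS 4 5 32 1 6 16 779077728860) 0 256 = true := by decide +kernel

theorem s1 : allB (okA 4 5 32 1 1 1399509457350) 0 4 = true := by decide +kernel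

theorem s2 : allB (okA 4 5 32 1 2 1164264459554) 0 16 = true := by decide +kernel

theorem s3 : allB (okA 4 5 32 1 3 1114128784941) 0 64 = true := by decide +kernel

theorem s4 : allB (okA 4 5 32 1 4 1110232445285) 0 256 = true := by decide +kernel

theorem ea1 : E0 4 5 64 1 1 ≤ 105149456208 := Nat.le_of_ble_eq_true (by decide +kernel)

theorem eb1 : E1 4 5 64 1 1 ≤ 13256254336 := Nat.le_of_ble_eq_true (by decide +kernel)

theorem ea2 : E0 4 5 64 1 2 ≤ 15893610796 := Nat.le_of_ble_eq_true (by decide +kernel)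

theorem eb2 : E1 4 5 64 1 2 ≤ 921642648 := Nat.le_of_ble_eq_true (by decide +kernel)

theorem ea3 : E0 4 5 64 1 3 ≤ 10954798448 := Nat.le_of_ble_eq_true (by decide +kernel)

theorem eb3 : E1 4 5 64 1 3 ≤ 543412966 := Nat.le_of_ble_eq_true (by decide +kernel)

theorem ea4 : E0 4 5 64 1 4 ≤ 8582808726 := Nat.le_of_ble_eq_true (by decide +kernel)

theorem eb4 : E1 4 5 64 1 4 ≤ 450047718 := Nat.le_of_ble_eq_true (by decide +kernel)

theorem ea5 : E0 4 5 64 1 5 ≤ 2443600908 := Nat.le_of_ble_eq_true (by decide +kernel)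

theorem eb5 : E1 4 5 64 1 5 ≤ 172094218 := Nat.le_of_ble_eq_true (by decide +kernel)

theorem ea6 : E0 4 5 64 1 6 ≤ 571252612 := Nat.le_of_ble_eq_true (by decide +kernel)

theorem eb6 : E1 4 5 64 1 6 ≤ 43312808 := Nat.le_of_ble_eq_true (by decide +kernel)

theorem ea7 : E0 4 5 64 1 7 ≤ 313664096 := Nat.le_of_ble_eq_true (by decide +kernel)

theorem eb7 : E1 4 5 64 1 7 ≤ 23782252 := Nat.le_of_ble_eq_true (by decide +kernel)

theorem ea8 : E0 4 5 64 1 8 ≤ 164350724 := Nat.le_of_ble_eq_true (by decide +kernel)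

theorem eb8 : E1 4 5 64 1 8 ≤ 11924728 := Nat.le_of_ble_eq_true (by decide +kernel)

theorem ea9 : E0 4 5 64 1 9 ≤ 49822700 := Nat.le_of_ble_eq_true (by decide +kernel)

theorem eb9 : E1 4 5 64 1 9 ≤ 3365510 := Nat.le_of_ble_eq_true (by decide +kernel)

end Vale.Agent.P105.Chk.N45m1
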